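import Vale.Agent.P233.Gig.IfA
import Vale.Agent.P233.Gig.IfB
import Vale.Agent.P233.H599.Radial
import Vale.Agent.P233.H589.Lat
import Mathlib.Analysis.Calculus.FDeriv.Measurable
import Mathlib.MeasureTheory.Integral.DominatedConvergence
import Mathlib.MeasureTheory.Integral.Prod

/-! P233, block A5hj: the Hamilton-Jacobi equality `Γ(z_t,z_t) = (d_p/(t+s₀))²` on `{z_t < 0}` for
the radial potentials `z_t`, from the viscous equation of `u n t`, the convergence `u n t → z_t` and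
the strong convergence of the gradients. -/

set_option linter.all false

open MeasureTheory Filter Topology Set
open scoped ENNReal NNReal Interval

universe u

namespace Vale.Agent.P233.H106

open Vale.Agent.P233 Vale.Agent.P233.Met Vale.Agent.P233.H599

variable {M : Type u} [MetricSpace M] [MeasurableSpace M] [BorelSpace M]
  [SecondCountableTopology M] {m : Measure M}

/-! ### the cut-off weight -/

section cut

variable (p : M) (R : ℝ)

/-- class of the cut-off function -/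
noncomputable def cw (m : Measure M) (p : M) (R : ℝ) : M →ₘ[m] ℝ := cl m (cutoff p R)

theorem cw_ae : ⇑(cw m p R) =ᵐ[m] cutoff p R :=
  cl_ae (cutoff_lip p R).continuous.aestronglyMeasurable

theorem cw_good (hfin : ∀ (x : M) (r : ℝ), m (Metric.ball x r) < ∞) :
    Good m (cutoff p R) ((Metric.ball p (R + 1 + 1)).indicator fun _ => ((1 : ℝ≥0) : ℝ)) :=
  good_of_bounded_support hfin (cutoff_lip p R) (fun x hx => cutoff_eq_zero hx)

theorem cw_memW (hfin : ∀ (x : M) (r : ℝ), m (Metric.ball x r) < ∞) : cw m p R ∈ (sob m).W := by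
  have h1 : W12 m (cutoff p R) := ⟨_, (cw_good p R hfin).rSlope⟩
  exact mem_sob_iff.2 (h1.congr (cw_ae p R).symm)

theorem cw_memA (hfin : ∀ (x : M) (r : ℝ), m (Metric.ball x r) < ∞) : cw m p R ∈ (sob m).A := by
  refine ⟨cw_memW p R hfin, mem_top_iff.2 ⟨1, ?_⟩⟩
  filter_upwards [cw_ae (m := m) p R] with x hx
  rw [hx, abs_of_nonneg (cutoff_nonneg _ _ _)]
  exact cutoff_le_one _ _ _

theorem cw_nonneg : 0 ≤ cw m p R := by
  rw [nonneg_iff_ae]
  filter_upwards [cw_ae (m := m) p R] with x hx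
  rw [hx]
  exact cutoff_nonneg _ _ _

theorem cw_mem1 (hfin : ∀ (x : M) (r : ℝ), m (Metric.ball x r) < ∞) : MemLp (cw m p R) 1 m := by
  have hbm : MeasurableSet (Metric.ball p (R + 1)) := Metric.isOpen_ball.measurableSet
  have h1 : MemLp ((Metric.ball p (R + 1)).indicator fun _ => (1 : ℝ)) 1 m :=
    memLp_indicator_const 1 hbm 1 (Or.inr (hfin p (R + 1)).ne)
  refine h1.mono (cw m p R).aestronglyMeasurable ?_
  filter_upwards [cw_ae (m := m) p R] with x hx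
  rw [hx, Real.norm_eq_abs, abs_of_nonneg (cutoff_nonneg _ _ _)]
  by_cases hb : x ∈ Metric.ball p (R + 1)
  · rw [indicator_of_mem hb, norm_one]
    exact cutoff_le_one _ _ _
  · rw [cutoff_eq_zero hb]
    exact norm_nonneg _

/-- `Γ(w,w) ≤ 1` -/
theorem cw_Γ (hfin : ∀ (x : M) (r : ℝ), m (Metric.ball x r) < ∞) :
    ∀ᵐ x ∂m, (sob m).Γ (cw m p R) (cw m p R) x ≤ 1 := by
  have hW := cw_memW (m := m) p R hfin
  filter_upwards [sob_Γ_self_ae hW, mslope_congr (cw_ae p R) (mem_sob_iff.1 hW),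
    (cw_good (m := m) p R hfin).rSlope.mslope_le, (mem_sob_iff.1 hW).mslope_nonneg]
    with x h1 h2 h3 h4
  rw [h1]
  have h5 : ((Metric.ball p (R + 1 + 1)).indicator fun _ => ((1 : ℝ≥0) : ℝ)) x ≤ 1 := by
    by_cases hb : x ∈ Metric.ball p (R + 1 + 1)
    · rw [indicator_of_mem hb]; simp
    · rw [indicator_of_notMem hb]; exact zero_le_one
  have h6 : mslope m (⇑(cw m p R)) x ≤ 1 := by rw [h2]; exact h3.trans h5
  nlinarith [h4, h6]

/-- `∫ |Γ(u,w)| ≤ D m(ball)` if `Γ(u,u) ≤ D²` -/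
theorem cw_int_le (hfin : ∀ (x : M) (r : ℝ), m (Metric.ball x r) < ∞) (hC : IsDir (sob m))
    {u : M →ₘ[m] ℝ} (hu : u ∈ (sob m).W) {D : ℝ} (hD : 0 ≤ D)
    (hlip : ∀ᵐ x ∂m, (sob m).Γ u u x ≤ D ^ 2) :
    |I ((sob m).Γ (cw m p R) u)| ≤ D * m.real (Metric.ball p (R + 1)) := by
  have hW := cw_memW (m := m) p R hfin
  have hbm : MeasurableSet (Metric.ball p (R + 1)) := Metric.isOpen_ball.measurableSet
  have h1 : ∀ᵐ x ∂m, |(sob m).Γ (cw m p R) u x| ≤
      ((Metric.ball p (R + 1)).indicator fun _ => D) x := by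
    filter_upwards [hC.Γ_ae_zero hW hu, hC.Γ_cs_ae hW hu, cw_Γ p R hfin, hlip,
      hC.Γ_nonneg_ae hW, hC.Γ_nonneg_ae hu, cw_ae (m := m) p R] with x a1 a2 a3 a4 a5 a6 a7
    by_cases hb : x ∈ Metric.ball p (R + 1)
    · rw [indicator_of_mem hb]
      refine abs_le_of_sq_le_sq ?_ hD
      calc (sob m).Γ (cw m p R) u x ^ 2 ≤ _ := a2
        _ ≤ 1 * D ^ 2 := mul_le_mul a3 a4 a6 zero_le_one
        _ = D ^ 2 := one_mul _
    · rw [indicator_of_notMem hb, a1 (by rw [a7, cutoff_eq_zero hb]), abs_zero]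
  have h2 : Integrable ((Metric.ball p (R + 1)).indicator fun _ => D) m :=
    (integrable_indicator_iff hbm).2 (integrableOn_const (hfin _ _).ne)
  unfold I
  calc |∫ x, (sob m).Γ (cw m p R) u x ∂m| ≤ ∫ x, |(sob m).Γ (cw m p R) u x| ∂m :=
        abs_integral_le_integral_abs
    _ ≤ ∫ x, ((Metric.ball p (R + 1)).indicator fun _ => D) x ∂m :=
        integral_mono_of_nonneg (Eventually.of_forall fun x => abs_nonneg _) h2 h1
    _ = D * m.real (Metric.ball p (R + 1)) := by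
        rw [integral_indicator hbm, setIntegral_const, smul_eq_mul, mul_comm]

end cut


/-! ### two elementary limits -/

theorem tendsto_zero_of_weights {a b : ℕ → ℝ} {c : ℝ} (hc : 0 ≤ c)
    (ha : Tendsto a atTop (𝓝 0)) (h : ∀ n, ∀ δ : ℝ, 0 < δ → |b n| ≤ δ * c + (1 + δ⁻¹) * a n) :
    Tendsto b atTop (𝓝 0) := by
  rw [Metric.tendsto_atTop]
  intro e he
  set δ : ℝ := e / (2 * (c + 1)) with hδ
  have hδ0 : 0 < δ := by positivity
  have h1 : Tendsto (fun n => (1 + δ⁻¹) * a n) atTop (𝓝 0) := by simpa using ha.const_mul (1 + δ⁻¹)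
  obtain ⟨N, hN⟩ := eventually_atTop.1 (h1.eventually (gt_mem_nhds (show (0 : ℝ) < e / 2 by
    positivity)))
  refine ⟨N, fun n hn => ?_⟩
  rw [Real.dist_eq, sub_zero]
  have h2 : δ * c ≤ e / 2 := by
    rw [hδ, div_mul_eq_mul_div, div_le_div_iff₀ (by positivity) (by norm_num)]
    nlinarith [he.le, hc]
  linarith [h n δ hδ0, hN n hn]

/-- `|∫ w v| ≤ δ ∫ w + δ⁻¹ ∫ w v²` -/
theorem abs_I_weight_le {w v : M →ₘ[m] ℝ} (hw : MemLp w 1 m) (h0 : 0 ≤ w)
    (hv : MemLp (w * v ^ 2 : M →ₘ[m] ℝ) 1 m) {δ : ℝ} (hδ : 0 < δ) :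
    |I (w * v)| ≤ δ * I w + δ⁻¹ * I (w * v ^ 2) := by
  unfold I
  have hint : Integrable (fun x => δ * w x + δ⁻¹ * (w * v ^ 2 : M →ₘ[m] ℝ) x) m :=
    ((int_of_mem hw).const_mul δ).add ((int_of_mem hv).const_mul δ⁻¹)
  calc |∫ x, (w * v : M →ₘ[m] ℝ) x ∂m| ≤ ∫ x, |(w * v : M →ₘ[m] ℝ) x| ∂m :=
        abs_integral_le_integral_abs
    _ ≤ ∫ x, (δ * w x + δ⁻¹ * (w * v ^ 2 : M →ₘ[m] ℝ) x) ∂m := by
        refine integral_mono_of_nonneg (Eventually.of_forall fun x => abs_nonneg _) hint ?_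
        filter_upwards [mul_ae w v, mul_ae w (v ^ 2), sq_ae v, nonneg_iff_ae.1 h0]
          with x a1 a2 a3 a4
        rw [a1, a2, a3, abs_mul, abs_of_nonneg a4]
        have h5 : |v x| ≤ δ + δ⁻¹ * v x ^ 2 := by
          have h6 : 0 ≤ δ⁻¹ * (|v x| - δ) ^ 2 := by positivity
          have h7 : δ⁻¹ * (|v x| - δ) ^ 2 = δ⁻¹ * v x ^ 2 - 2 * |v x| + δ := by
            rw [sub_sq, sq_abs]; field_simp
          nlinarith [abs_nonneg (v x)]
        nlinarith [mul_le_mul_of_nonneg_left h5 a4]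
    _ = δ * ∫ x, w x ∂m + δ⁻¹ * ∫ x, (w * v ^ 2 : M →ₘ[m] ℝ) x ∂m := by
        rw [integral_add ((int_of_mem hw).const_mul δ) ((int_of_mem hv).const_mul δ⁻¹),
          integral_const_mul, integral_const_mul]

/-- convergence of `∫ w Γ(u,u)` -/
theorem abs_wΓ_sub_le (hC : IsDir (sob m)) {w u z : M →ₘ[m] ℝ} (hw : MemLp w 1 m) (h0 : 0 ≤ w)
    (hwb : MemLp w ∞ m) (hu : u ∈ (sob m).W) (hz : z ∈ (sob m).W) {G : ℝ}
    (hG : ∀ᵐ x ∂m, (sob m).Γ z z x ≤ G) {δ : ℝ} (hδ : 0 < δ) :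
    |I (w * (sob m).Γ u u) - I (w * (sob m).Γ z z)| ≤
      δ * (G * I w) + (1 + δ⁻¹) * I (w * (sob m).Γ (u - z) (u - z)) := by
  have hd := hC.sub_mem hu hz
  have e1 : (sob m).Γ u u = (sob m).Γ (u - z) (u - z) + 2 * (sob m).Γ (u - z) z
      + (sob m).Γ z z := by
    have : u = (u - z) + z := by abel
    conv_lhs => rw [this]
    rw [hC.add_left _ hd _ hz _ (hC.add_mem _ hd _ hz), hC.Γ_add_right hd hd hz,
      hC.Γ_add_right hz hd hz, hC.symm z hz _ hd]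
    ring
  have m1 := hC.Γ_mem1 hd hd
  have m2 := hC.Γ_mem1 hd hz
  have m3 := hC.Γ_mem1 hz hz
  have m4 := hC.Γ_mem1 hu hu
  rw [← I_sub (mem_mul_top hwb m4) (mem_mul_top hwb m3)]
  unfold I
  have hint : Integrable (fun x => δ * G * w x + (1 + δ⁻¹) *
      (w * (sob m).Γ (u - z) (u - z) : M →ₘ[m] ℝ) x) m :=
    ((int_of_mem hw).const_mul (δ * G)).add ((int_of_mem (mem_mul_top hwb m1)).const_mul _)
  calc |∫ x, (w * (sob m).Γ u u - w * (sob m).Γ z z : M →ₘ[m] ℝ) x ∂m|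
      ≤ ∫ x, |(w * (sob m).Γ u u - w * (sob m).Γ z z : M →ₘ[m] ℝ) x| ∂m :=
        abs_integral_le_integral_abs
    _ ≤ ∫ x, (δ * G * w x + (1 + δ⁻¹) * (w * (sob m).Γ (u - z) (u - z) : M →ₘ[m] ℝ) x) ∂m := by
        refine integral_mono_of_nonneg (Eventually.of_forall fun x => abs_nonneg _) hint ?_
        filter_upwards [sub_ae (w * (sob m).Γ u u) (w * (sob m).Γ z z), mul_ae w ((sob m).Γ u u),
          mul_ae w ((sob m).Γ z z), mul_ae w ((sob m).Γ (u - z) (u - z)), eq_iff_ae.1 e1,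
          add_ae ((sob m).Γ (u - z) (u - z) + 2 * (sob m).Γ (u - z) z) ((sob m).Γ z z),
          add_ae ((sob m).Γ (u - z) (u - z)) (2 * (sob m).Γ (u - z) z),
          nonneg_iff_ae.1 h0, hC.Γ_cs_ae hd hz, hC.Γ_nonneg_ae hd, hC.Γ_nonneg_ae hz, hG,
          show ∀ᵐ x ∂m, (2 * (sob m).Γ (u - z) z : M →ₘ[m] ℝ) x = 2 * (sob m).Γ (u - z) z x from by
            rw [two_mul]
            filter_upwards [add_ae ((sob m).Γ (u - z) z) ((sob m).Γ (u - z) z)] with x hx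
            rw [hx]; ring]
          with x a1 a2 a3 a4 a5 a6 a7 a8 a9 a10 a11 a12 a13
        rw [a1, a2, a3, a4, a5, a6, a7, a13]
        have e2 : w x * ((sob m).Γ (u - z) (u - z) x + 2 * (sob m).Γ (u - z) z x
            + (sob m).Γ z z x) - w x * (sob m).Γ z z x =
            w x * ((sob m).Γ (u - z) (u - z) x + 2 * (sob m).Γ (u - z) z x) := by ring
        rw [e2, abs_mul, abs_of_nonneg a8]
        set A := (sob m).Γ (u - z) (u - z) x
        set B := (sob m).Γ (u - z) z x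
        set Z := (sob m).Γ z z x
        have h5 : 2 * |B| ≤ δ * Z + δ⁻¹ * A := by
          have h6 : |B| ^ 2 ≤ A * Z := by rw [sq_abs]; exact a9
          have h7 : (2 * |B|) ^ 2 ≤ (δ * Z + δ⁻¹ * A) ^ 2 := by
            have h8 : (δ * Z + δ⁻¹ * A) ^ 2 = (δ * Z - δ⁻¹ * A) ^ 2 + 4 * (A * Z) := by
              field_simp; ring
            rw [h8]
            nlinarith [sq_nonneg (δ * Z - δ⁻¹ * A)]
          exact le_of_sq_le_sq h7 (by positivity)
        have h9 : |A + 2 * B| ≤ A + 2 * |B| := by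
          calc |A + 2 * B| ≤ |A| + |2 * B| := abs_add_le _ _
            _ = A + 2 * |B| := by rw [abs_of_nonneg a10, abs_mul, abs_two]
        have h10 : |A + 2 * B| ≤ δ * G + (1 + δ⁻¹) * A := by
          nlinarith [mul_le_mul_of_nonneg_left a12 hδ.le]
        nlinarith [mul_le_mul_of_nonneg_left h10 a8]
    _ = δ * (G * ∫ x, w x ∂m) + (1 + δ⁻¹) * ∫ x, (w * (sob m).Γ (u - z) (u - z) : M →ₘ[m] ℝ) x ∂m := by
        rw [integral_add ((int_of_mem hw).const_mul (δ * G))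
          ((int_of_mem (mem_mul_top hwb m1)).const_mul _), integral_const_mul, integral_const_mul]
        ring


/-! ### the time derivative -/

/-- the derivative of `t ↦ ∫ w u_t` from the `L²` derivative -/
theorem hasDeriv_I {w : M →ₘ[m] ℝ} (hw : MemLp w 2 m) {S : Set ℝ} {u : ℝ → M →ₘ[m] ℝ}
    {V : M →ₘ[m] ℝ} {t : ℝ} (hu : ∀ r ∈ S, MemLp (u r) 2 m) (ht : t ∈ S) (hV : MemLp V 2 m)
    (h : Tendsto (fun r => I (((r - t)⁻¹ • (u r - u t) - V) ^ 2)) (𝓝[S \ {t}] t) (𝓝 0)) :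
    HasDerivWithinAt (fun r => I (w * u r)) (I (w * V)) S t := by
  rw [hasDerivWithinAt_iff_tendsto_slope, tendsto_iff_norm_sub_tendsto_zero]
  have h1 : Tendsto (fun r => Real.sqrt (I (w ^ 2)) *
      Real.sqrt (I (((r - t)⁻¹ • (u r - u t) - V) ^ 2))) (𝓝[S \ {t}] t) (𝓝 0) := by
    have h3 := (Real.continuous_sqrt.tendsto _).comp h
    rw [Real.sqrt_zero] at h3
    simpa using h3.const_mul (Real.sqrt (I (w ^ 2)))
  refine squeeze_zero' (Eventually.of_forall fun r => norm_nonneg _) ?_ h1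
  filter_upwards [self_mem_nhdsWithin] with r hr
  have hr1 := hu r hr.1
  have ht1 := hu t ht
  have e1 : _root_.slope (fun r => I (w * u r)) t r - I (w * V) =
      I (w * ((r - t)⁻¹ • (u r - u t) - V)) := by
    rw [slope_def_field, mul_sub, mul_smul_comm, mul_sub,
      I_sub (mem_smul _ (mem_sub (mem_mul_22 hw hr1) (mem_mul_22 hw ht1))) (mem_mul_22 hw hV),
      I_smul, I_sub (mem_mul_22 hw hr1) (mem_mul_22 hw ht1)]
    ring
  rw [e1, Real.norm_eq_abs, ← Real.sqrt_mul (I_sq_nonneg w)]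
  exact Real.abs_le_sqrt (I_cs hw (mem_sub (mem_smul _ (mem_sub hr1 ht1)) hV))

/-- the fundamental theorem for `t ↦ ∫ w u_t` on `[0,1]` -/
theorem ftc_I {w : M →ₘ[m] ℝ} (hw : MemLp w 2 m) {u V : ℝ → M →ₘ[m] ℝ}
    (hu : ∀ r ∈ Icc (0 : ℝ) 1, MemLp (u r) 2 m) (hV : ∀ r ∈ Icc (0 : ℝ) 1, MemLp (V r) 2 m)
    (h : ∀ t ∈ Icc (0 : ℝ) 1, Tendsto (fun r => I (((r - t)⁻¹ • (u r - u t) - V t) ^ 2))
      (𝓝[Icc 0 1 \ {t}] t) (𝓝 0)) {B : ℝ} (hB : ∀ r ∈ Icc (0 : ℝ) 1, |I (w * V r)| ≤ B) :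
    AEStronglyMeasurable (fun r => I (w * V r)) (volume.restrict (Ι (0 : ℝ) 1)) ∧
      ∫ r in (0 : ℝ)..1, I (w * V r) = I (w * u 1) - I (w * u 0) := by
  have hd : ∀ t ∈ Icc (0 : ℝ) 1, HasDerivWithinAt (fun r => I (w * u r)) (I (w * V t))
      (Icc 0 1) t := fun t ht => hasDeriv_I hw hu ht (hV t ht) (h t ht)
  have hd' : ∀ t ∈ Ioo (0 : ℝ) 1, HasDerivAt (fun r => I (w * u r)) (I (w * V t)) t :=
    fun t ht => (hd t (Ioo_subset_Icc_self ht)).hasDerivAt (Icc_mem_nhds ht.1 ht.2)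
  have hae : ∀ᵐ r ∂(volume.restrict (Ι (0 : ℝ) 1)), deriv (fun r => I (w * u r)) r =
      I (w * V r) := by
    rw [uIoc_of_le zero_le_one, ← Measure.restrict_congr_set (Ioo_ae_eq_Ioc (μ := volume)
      (a := (0 : ℝ)) (b := 1))]
    filter_upwards [ae_restrict_mem measurableSet_Ioo] with r hr
    exact (hd' r hr).deriv
  have hmeas : AEStronglyMeasurable (fun r => I (w * V r)) (volume.restrict (Ι (0 : ℝ) 1)) :=
    (measurable_deriv _).aestronglyMeasurable.congr hae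
  refine ⟨hmeas, ?_⟩
  refine intervalIntegral.integral_eq_sub_of_hasDerivAt_of_le zero_le_one
    (fun t ht => (hd t ht).continuousWithinAt) hd' ?_
  rw [intervalIntegrable_iff]
  unfold IntegrableOn
  rw [uIoc_of_le zero_le_one] at hmeas ⊢
  refine Integrable.of_bound hmeas B ?_
  filter_upwards [ae_restrict_mem measurableSet_Ioc] with r hr
  exact hB r ⟨hr.1.le, hr.2⟩


/-! ### Fubini for the explicit potentials -/

/-- `∫ w (z_1 - z_0) = -½ ∫_0^1 ∫ w G_r` -/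
theorem zr_fubini (hfin : ∀ (x : M) (r : ℝ), m (Metric.ball x r) < ∞) {p : M} {s₀ C₀ : ℝ}
    (hs : 0 < s₀) (hC₀ : 0 ≤ C₀) (R : ℝ) :
    IntegrableOn (fun r => ∫ x, cutoff p R x * Gz p s₀ C₀ r x ∂m) (Ioc (0 : ℝ) 1) ∧
    I (cw m p R * cl m (zr p s₀ C₀ 1)) - I (cw m p R * cl m (zr p s₀ C₀ 0)) =
      -(1 / 2) * ∫ r in Ioc (0 : ℝ) 1, ∫ x, cutoff p R x * Gz p s₀ C₀ r x ∂m := by
  haveI : SigmaFinite m := sigmaFinite_of_ball hfin
  have hbm : MeasurableSet (Metric.ball p (R + 1)) := Metric.isOpen_ball.measurableSet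
  have hGm := Gz_measurable p s₀ C₀
  have hcm : Measurable (cutoff p R) := (cutoff_lip p R).continuous.measurable
  have hint : Integrable (Function.uncurry fun (x : M) (r : ℝ) => cutoff p R x * Gz p s₀ C₀ r x)
      (m.prod (volume.restrict (Ioc (0 : ℝ) 1))) := by
    have h1 : Integrable ((Metric.ball p (R + 1)).indicator fun _ => 2 * C₀ / s₀) m :=
      (integrable_indicator_iff hbm).2 (integrableOn_const (hfin _ _).ne)
    have h2 : Integrable (fun _ : ℝ => (1 : ℝ)) (volume.restrict (Ioc (0 : ℝ) 1)) :=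
      integrable_const _
    refine (h1.mul_prod h2).mono' ?_ ?_
    · refine Measurable.aestronglyMeasurable ?_
      exact (hcm.comp measurable_fst).mul (hGm.comp (measurable_snd.prodMk measurable_fst))
    · have h3 : ∀ᵐ z ∂(m.prod (volume.restrict (Ioc (0 : ℝ) 1))), z.2 ∈ Ioc (0 : ℝ) 1 := by
        have : ∀ᵐ r ∂(volume.restrict (Ioc (0 : ℝ) 1)), r ∈ Ioc (0 : ℝ) 1 :=
          ae_restrict_mem measurableSet_Ioc
        exact Measure.quasiMeasurePreserving_snd.ae this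
      filter_upwards [h3] with z hz
      simp only [Function.uncurry]
      rw [mul_one, norm_mul, Real.norm_eq_abs, Real.norm_eq_abs,
        abs_of_nonneg (cutoff_nonneg _ _ _), abs_of_nonneg (Gz_nonneg _ _ _ _ _)]
      by_cases hb : z.1 ∈ Metric.ball p (R + 1)
      · rw [indicator_of_mem hb]
        calc cutoff p R z.1 * Gz p s₀ C₀ z.2 z.1 ≤ 1 * (2 * C₀ / s₀) :=
              mul_le_mul (cutoff_le_one _ _ _) (Gz_le hs hz.1.le hC₀ _) (Gz_nonneg _ _ _ _ _)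
                zero_le_one
          _ = 2 * C₀ / s₀ := one_mul _
      · rw [cutoff_eq_zero hb, zero_mul, indicator_of_notMem hb]
  refine ⟨hint.integral_prod_right, ?_⟩
  rw [← integral_integral_swap hint]
  have hw := cw_memA (m := m) p R hfin
  have hz1 := zr_memA (m := m) (p := p) (s₀ := s₀) (C₀ := C₀) (t := 1) hfin (by linarith) hC₀
  have hz0 := zr_memA (m := m) (p := p) (s₀ := s₀) (C₀ := C₀) (t := 0) hfin (by linarith) hC₀
  have hw1 := cw_mem1 (m := m) p R hfin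
  rw [← I_sub (mem_top_mul hw1 hz1.2) (mem_top_mul hw1 hz0.2), ← integral_const_mul]
  unfold I
  refine integral_congr_ae ?_
  filter_upwards [sub_ae (cw m p R * cl m (zr p s₀ C₀ 1)) (cw m p R * cl m (zr p s₀ C₀ 0)),
    mul_ae (cw m p R) (cl m (zr p s₀ C₀ 1)), mul_ae (cw m p R) (cl m (zr p s₀ C₀ 0)),
    cw_ae (m := m) p R, zr_cl_ae (m := m) p s₀ C₀ 1, zr_cl_ae (m := m) p s₀ C₀ 0]
    with x a1 a2 a3 a4 a5 a6
  rw [a1, a2, a3, a4, a5, a6, ← mul_sub, zr_hj hs hC₀ le_rfl zero_le_one, integral_const_mul,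
    intervalIntegral.integral_of_le zero_le_one]
  ring

/-! ### the Hamilton-Jacobi equality -/

section main

variable {p : M} {s₀ C₀ : ℝ}

/-- almost every time -/
theorem hj_ae (hfin : ∀ (x : M) (r : ℝ), m (Metric.ball x r) < ∞) (hC : IsDir (sob m))
    (hs : 0 < s₀) (hC₀ : 0 ≤ C₀) {u : ℕ → ℝ → M →ₘ[m] ℝ} {ε : ℕ → ℝ} (hε0 : ∀ n, 0 ≤ ε n)
    (hε : Tendsto ε atTop (𝓝 0)) {D : ℝ} (hD : 0 ≤ D)
    (hu : ∀ n, ∀ t ∈ Icc (0 : ℝ) 1, (sob m).IsLap (u n t) ((sob m).lap (u n t)))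
    (hlip : ∀ n, ∀ t ∈ Icc (0 : ℝ) 1, ∀ᵐ x ∂m, (sob m).Γ (u n t) (u n t) x ≤ D ^ 2)
    (hpde : ∀ n, ∀ t ∈ Icc (0 : ℝ) 1, Tendsto (fun r => I (((r - t)⁻¹ • (u n r - u n t) -
      ((ε n / 2) • (sob m).lap (u n t) - (2 : ℝ)⁻¹ • (sob m).Γ (u n t) (u n t))) ^ 2))
      (𝓝[Icc 0 1 \ {t}] t) (𝓝 0))
    (hconv : ∀ t ∈ Icc (0 : ℝ) 1,
      Tendsto (fun n => I ((u n t - cl m (zr p s₀ C₀ t)) ^ 2)) atTop (𝓝 0))
    (hgrad : ∀ t ∈ Ioc (0 : ℝ) 1, ∀ w : M →ₘ[m] ℝ, 0 ≤ w → MemLp w 1 m →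
      Tendsto (fun n => I (w * (sob m).Γ (u n t - cl m (zr p s₀ C₀ t))
        (u n t - cl m (zr p s₀ C₀ t)))) atTop (𝓝 0)) (R : ℝ) :
    ∀ᵐ r ∂(volume.restrict (Ioc (0 : ℝ) 1)), ∀ᵐ x ∂m, dist x p ≤ R →
      (sob m).Γ (cl m (zr p s₀ C₀ r)) (cl m (zr p s₀ C₀ r)) x = Gz p s₀ C₀ r x := by
  set w := cw m p R with hwdef
  have hw1 : MemLp w 1 m := cw_mem1 p R hfin
  have hwA : w ∈ (sob m).A := cw_memA p R hfin
  have hwW := hwA.1
  have hw2 : MemLp w 2 m := hC.memLp w hwW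
  have hw0 : 0 ≤ w := cw_nonneg p R
  set V : ℕ → ℝ → M →ₘ[m] ℝ := fun n r =>
    (ε n / 2) • (sob m).lap (u n r) - (2 : ℝ)⁻¹ • (sob m).Γ (u n r) (u n r) with hV
  have hΓtop : ∀ n, ∀ t ∈ Icc (0 : ℝ) 1, MemLp ((sob m).Γ (u n t) (u n t)) ∞ m := by
    intro n t ht
    refine mem_top_iff.2 ⟨D ^ 2, ?_⟩
    filter_upwards [hlip n t ht, hC.Γ_nonneg_ae (hu n t ht).1] with x a1 a2
    rwa [abs_of_nonneg a2]
  have hΓ2 : ∀ n, ∀ t ∈ Icc (0 : ℝ) 1, MemLp ((sob m).Γ (u n t) (u n t)) 2 m := fun n t ht =>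
    hC.Γ_mem2 (hu n t ht).1 (hΓtop n t ht) (hu n t ht).1
  have hV2 : ∀ n, ∀ t ∈ Icc (0 : ℝ) 1, MemLp (V n t) 2 m := fun n t ht =>
    mem_sub (mem_smul _ (hu n t ht).2.1) (mem_smul _ (hΓ2 n t ht))
  set b : ℝ := m.real (Metric.ball p (R + 1)) with hb
  have hb0 : 0 ≤ b := measureReal_nonneg
  have hlap : ∀ n, ∀ t ∈ Icc (0 : ℝ) 1, |I (w * (sob m).lap (u n t))| ≤ D * b := by
    intro n t ht
    have h1 : I ((sob m).Γ (u n t) w) = -I ((sob m).lap (u n t) * w) := (hu n t ht).2.2 w hwW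
    have h2 : I (w * (sob m).lap (u n t)) = -I ((sob m).Γ w (u n t)) := by
      rw [mul_comm, hC.symm w hwW _ (hu n t ht).1, h1, neg_neg]
    rw [h2, abs_neg]
    exact cw_int_le p R hfin hC (hu n t ht).1 hD (hlip n t ht)
  have hIV : ∀ n, ∀ t ∈ Icc (0 : ℝ) 1, I (w * V n t) =
      ε n / 2 * I (w * (sob m).lap (u n t)) - 2⁻¹ * I (w * (sob m).Γ (u n t) (u n t)) := by
    intro n t ht
    have h1 : w * V n t = (ε n / 2) • (w * (sob m).lap (u n t)) -
        (2 : ℝ)⁻¹ • (w * (sob m).Γ (u n t) (u n t)) := by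
      rw [hV]
      simp only [mul_sub, mul_smul_comm]
    rw [h1, I_sub (mem_smul _ (mem_mul_22 hw2 (hu n t ht).2.1))
      (mem_smul _ (mem_mul_22 hw2 (hΓ2 n t ht))), I_smul, I_smul]
  have hΓI : ∀ n, ∀ t ∈ Icc (0 : ℝ) 1, |I (w * (sob m).Γ (u n t) (u n t))| ≤ D ^ 2 * I w := by
    intro n t ht
    have h0 : 0 ≤ w * (sob m).Γ (u n t) (u n t) := mul_nonneg hw0 (hC.nonneg _ (hu n t ht).1)
    rw [abs_of_nonneg (I_nonneg h0), ← I_smul]
    refine I_mono (mem_mul_22 hw2 (hΓ2 n t ht)) (mem_smul _ hw1) ?_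
    rw [le_iff_ae]
    filter_upwards [mul_ae w ((sob m).Γ (u n t) (u n t)), smul_ae (D ^ 2) (f := w), hlip n t ht,
      nonneg_iff_ae.1 hw0] with x a1 a2 a3 a4
    rw [a1, a2, mul_comm]
    exact mul_le_mul_of_nonneg_right a3 a4
  obtain ⟨E0, hE0⟩ : ∃ E0, ∀ n, ε n ≤ E0 := by
    obtain ⟨E0, h⟩ := hε.bddAbove_range
    exact ⟨E0, fun n => h ⟨n, rfl⟩⟩
  have hE00 : 0 ≤ E0 := (hε0 0).trans (hE0 0)
  have hIw : 0 ≤ I w := I_nonneg hw0
  set B : ℝ := E0 / 2 * (D * b) + 2⁻¹ * (D ^ 2 * I w) with hBdef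
  have hB : ∀ n, ∀ t ∈ Icc (0 : ℝ) 1, |I (w * V n t)| ≤ B := by
    intro n t ht
    rw [hIV n t ht]
    calc |ε n / 2 * I (w * (sob m).lap (u n t)) - 2⁻¹ * I (w * (sob m).Γ (u n t) (u n t))|
        ≤ |ε n / 2 * I (w * (sob m).lap (u n t))| + |2⁻¹ * I (w * (sob m).Γ (u n t) (u n t))| :=
          abs_sub _ _
      _ = ε n / 2 * |I (w * (sob m).lap (u n t))| + 2⁻¹ * |I (w * (sob m).Γ (u n t) (u n t))| := by
          rw [abs_mul, abs_mul, abs_of_nonneg (by have := hε0 n; positivity),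
            abs_of_nonneg (by norm_num : (0 : ℝ) ≤ 2⁻¹)]
      _ ≤ B := by
          have h1 := hlap n t ht
          have h2 := hΓI n t ht
          have h3 : ε n / 2 * |I (w * (sob m).lap (u n t))| ≤ E0 / 2 * (D * b) :=
            mul_le_mul (by linarith [hE0 n]) h1 (abs_nonneg _) (by positivity)
          linarith
  set z : ℝ → M →ₘ[m] ℝ := fun t => cl m (zr p s₀ C₀ t) with hz
  have hτ : ∀ {t : ℝ}, 0 ≤ t → 0 < t + s₀ := fun h => by linarith
  have hzA : ∀ t ∈ Icc (0 : ℝ) 1, z t ∈ (sob m).A := fun t ht => zr_memA hfin (hτ ht.1) hC₀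
  have hzΓ : ∀ t ∈ Icc (0 : ℝ) 1, ∀ᵐ x ∂m, (sob m).Γ (z t) (z t) x ≤ 2 * C₀ / s₀ := by
    intro t ht
    filter_upwards [zr_Γ_le (m := m) (p := p) hfin (hτ ht.1) hC₀] with x hx
    exact hx.trans (Gz_le hs ht.1 hC₀ x)
  have hG0 : 0 ≤ 2 * C₀ / s₀ := by positivity
  -- the limit of the right hand side
  have hlim : ∀ r ∈ Ioc (0 : ℝ) 1, Tendsto (fun n => I (w * V n r)) atTop
      (𝓝 (-(1 / 2) * I (w * (sob m).Γ (z r) (z r)))) := by
    intro r hr
    have hr' : r ∈ Icc (0 : ℝ) 1 := ⟨hr.1.le, hr.2⟩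
    have h1 : Tendsto (fun n => I (w * (sob m).Γ (u n r) (u n r)) - I (w * (sob m).Γ (z r) (z r)))
        atTop (𝓝 0) :=
      tendsto_zero_of_weights (c := 2 * C₀ / s₀ * I w) (by positivity) (hgrad r hr w hw0 hw1)
        (fun n δ hδ => abs_wΓ_sub_le hC hw1 hw0 hwA.2 (hu n r hr').1 (hzA r hr').1 (hzΓ r hr') hδ)
    have h2 : Tendsto (fun n => ε n / 2 * I (w * (sob m).lap (u n r))) atTop (𝓝 0) := by
      refine squeeze_zero_norm (a := fun n => ε n / 2 * (D * b)) (fun n => ?_) ?_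
      · rw [norm_mul, Real.norm_eq_abs, Real.norm_eq_abs,
          abs_of_nonneg (by have := hε0 n; positivity : 0 ≤ ε n / 2)]
        exact mul_le_mul_of_nonneg_left (hlap n r hr') (by have := hε0 n; positivity)
      · have := (hε.div_const 2).mul_const (D * b)
        simpa using this
    have h3 := h2.sub (h1.const_mul 2⁻¹)
    have h4 : Tendsto (fun n => I (w * V n r) - (-(1 / 2) * I (w * (sob m).Γ (z r) (z r))))
        atTop (𝓝 0) := by
      have e : (fun n => I (w * V n r) - (-(1 / 2) * I (w * (sob m).Γ (z r) (z r)))) =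
          fun n => ε n / 2 * I (w * (sob m).lap (u n r)) - 2⁻¹ *
            (I (w * (sob m).Γ (u n r) (u n r)) - I (w * (sob m).Γ (z r) (z r))) := by
        funext n
        rw [hIV n r hr']
        ring
      rw [e]
      simpa using h3
    have h5 := h4.add_const (-(1 / 2) * I (w * (sob m).Γ (z r) (z r)))
    simpa using h5
  -- the limit of the left hand side
  have hlimL : ∀ t ∈ Icc (0 : ℝ) 1, Tendsto (fun n => I (w * u n t)) atTop (𝓝 (I (w * z t))) := by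
    intro t ht
    have h0 : Tendsto (fun n => I (w * (u n t - z t) ^ 2)) atTop (𝓝 0) := by
      refine squeeze_zero (fun n => I_nonneg (mul_nonneg hw0 (sq_nonneg' _))) (fun n => ?_)
        (hconv t ht)
      have hd2 : MemLp (u n t - z t : M →ₘ[m] ℝ) 2 m :=
        mem_sub (hC.memLp _ (hu n t ht).1) (hC.memLp _ (hzA t ht).1)
      refine I_mono (mem_mul_top hwA.2 (mem_sq hd2)) (mem_sq hd2) ?_
      rw [le_iff_ae]
      filter_upwards [mul_ae w ((u n t - z t) ^ 2), cw_ae (m := m) p R,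
        nonneg_iff_ae.1 (sq_nonneg' (u n t - z t))] with x a1 a2 a3
      rw [a1]
      have a4 : w x ≤ 1 := by rw [hwdef, a2]; exact cutoff_le_one _ _ _
      exact mul_le_of_le_one_left a3 a4
    have h1 : Tendsto (fun n => I (w * (u n t - z t))) atTop (𝓝 0) := by
      refine tendsto_zero_of_weights (c := I w) hIw h0 (fun n δ hδ => ?_)
      have hd2 : MemLp (u n t - z t : M →ₘ[m] ℝ) 2 m :=
        mem_sub (hC.memLp _ (hu n t ht).1) (hC.memLp _ (hzA t ht).1)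
      have h2 := abs_I_weight_le hw1 hw0 (mem_mul_top hwA.2 (mem_sq hd2)) hδ
      have h3 : 0 ≤ I (w * (u n t - z t) ^ 2) := I_nonneg (mul_nonneg hw0 (sq_nonneg' _))
      nlinarith
    have h2 := h1.add_const (I (w * z t))
    rw [zero_add] at h2
    refine h2.congr fun n => ?_
    rw [mul_sub, I_sub (mem_mul_22 hw2 (hC.memLp _ (hu n t ht).1))
      (mem_mul_22 hw2 (hC.memLp _ (hzA t ht).1)), sub_add_cancel]
  -- pass to the limit
  have hftc : ∀ n, AEStronglyMeasurable (fun r => I (w * V n r)) (volume.restrict (Ι (0 : ℝ) 1)) ∧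
      ∫ r in (0 : ℝ)..1, I (w * V n r) = I (w * u n 1) - I (w * u n 0) := fun n =>
    ftc_I hw2 (fun r hr => hC.memLp _ (hu n r hr).1) (hV2 n) (hpde n) (hB n)
  have hint : ∫ r in (0 : ℝ)..1, -(1 / 2) * I (w * (sob m).Γ (z r) (z r)) =
      I (w * z 1) - I (w * z 0) := by
    have h1 : Tendsto (fun n => ∫ r in (0 : ℝ)..1, I (w * V n r)) atTop
        (𝓝 (∫ r in (0 : ℝ)..1, -(1 / 2) * I (w * (sob m).Γ (z r) (z r)))) := by
      refine intervalIntegral.tendsto_integral_filter_of_dominated_convergence (fun _ => B)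
        (Eventually.of_forall fun n => (hftc n).1) (Eventually.of_forall fun n =>
          Eventually.of_forall fun r hr => ?_) (by simp) (Eventually.of_forall fun r hr => ?_)
      · rw [uIoc_of_le zero_le_one] at hr
        exact hB n r ⟨hr.1.le, hr.2⟩
      · rw [uIoc_of_le zero_le_one] at hr
        exact hlim r hr
    have h2 : Tendsto (fun n => ∫ r in (0 : ℝ)..1, I (w * V n r)) atTop
        (𝓝 (I (w * z 1) - I (w * z 0))) := by
      have h3 := (hlimL 1 (by simp)).sub (hlimL 0 (by simp))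
      refine h3.congr fun n => ?_
      rw [(hftc n).2]
    exact tendsto_nhds_unique h1 h2
  obtain ⟨hfub1, hfub2⟩ := zr_fubini (m := m) hfin (p := p) hs hC₀ R
  -- measurability of the limit
  have hmz : AEStronglyMeasurable (fun r => -(1 / 2) * I (w * (sob m).Γ (z r) (z r)))
      (volume.restrict (Ioc (0 : ℝ) 1)) := by
    refine aestronglyMeasurable_of_tendsto_ae atTop (f := fun n r => I (w * V n r)) (fun n => ?_) ?_
    · have := (hftc n).1
      rwa [uIoc_of_le zero_le_one] at this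
    · filter_upwards [ae_restrict_mem measurableSet_Ioc] with r hr
      exact hlim r hr
  have hBz : ∀ r ∈ Ioc (0 : ℝ) 1, |-(1 / 2) * I (w * (sob m).Γ (z r) (z r))| ≤ B := by
    intro r hr
    exact le_of_tendsto ((continuous_abs.tendsto _).comp (hlim r hr))
      (Eventually.of_forall fun n => hB n r ⟨hr.1.le, hr.2⟩)
  have hiz : Integrable (fun r => -(1 / 2) * I (w * (sob m).Γ (z r) (z r)))
      (volume.restrict (Ioc (0 : ℝ) 1)) := by
    refine Integrable.of_bound hmz B ?_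
    filter_upwards [ae_restrict_mem measurableSet_Ioc] with r hr
    exact hBz r hr
  have hiz2 : Integrable (fun r => I (w * (sob m).Γ (z r) (z r)))
      (volume.restrict (Ioc (0 : ℝ) 1)) := by
    have := hiz.const_mul (-2)
    refine this.congr (Eventually.of_forall fun r => ?_)
    ring
  -- comparison
  have hdiff : ∀ r ∈ Ioc (0 : ℝ) 1, (∫ x, cutoff p R x * Gz p s₀ C₀ r x ∂m) -
      I (w * (sob m).Γ (z r) (z r)) = ∫ x, cutoff p R x * (Gz p s₀ C₀ r x -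
        (sob m).Γ (z r) (z r) x) ∂m ∧ (0 ≤ᵐ[m] fun x => cutoff p R x * (Gz p s₀ C₀ r x -
        (sob m).Γ (z r) (z r) x)) ∧ Integrable (fun x => cutoff p R x * (Gz p s₀ C₀ r x -
        (sob m).Γ (z r) (z r) x)) m := by
    intro r hr
    have hr' : r ∈ Icc (0 : ℝ) 1 := ⟨hr.1.le, hr.2⟩
    have hbm : MeasurableSet (Metric.ball p (R + 1)) := Metric.isOpen_ball.measurableSet
    have i1 : Integrable (fun x => cutoff p R x * Gz p s₀ C₀ r x) m := by
      have h1 : Integrable ((Metric.ball p (R + 1)).indicator fun _ => 2 * C₀ / s₀) m :=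
        (integrable_indicator_iff hbm).2 (integrableOn_const (hfin _ _).ne)
      refine h1.mono' ?_ (Eventually.of_forall fun x => ?_)
      · refine Measurable.aestronglyMeasurable ?_
        exact (cutoff_lip p R).continuous.measurable.mul
          ((Gz_measurable p s₀ C₀).comp (measurable_const.prodMk measurable_id))
      · rw [norm_mul, Real.norm_eq_abs, Real.norm_eq_abs,
          abs_of_nonneg (cutoff_nonneg _ _ _), abs_of_nonneg (Gz_nonneg _ _ _ _ _)]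
        by_cases hb : x ∈ Metric.ball p (R + 1)
        · rw [indicator_of_mem hb]
          calc cutoff p R x * Gz p s₀ C₀ r x ≤ 1 * (2 * C₀ / s₀) :=
                mul_le_mul (cutoff_le_one _ _ _) (Gz_le hs hr.1.le hC₀ _) (Gz_nonneg _ _ _ _ _)
                  zero_le_one
            _ = 2 * C₀ / s₀ := one_mul _
        · rw [cutoff_eq_zero hb, zero_mul, indicator_of_notMem hb]
    have i2 : Integrable (fun x => cutoff p R x * (sob m).Γ (z r) (z r) x) m := by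
      have h1 : Integrable (w * (sob m).Γ (z r) (z r) : M →ₘ[m] ℝ) m :=
        int_of_mem (mem_mul_top hwA.2 (hC.Γ_mem1 (hzA r hr').1 (hzA r hr').1))
      refine h1.congr ?_
      filter_upwards [mul_ae w ((sob m).Γ (z r) (z r)), cw_ae (m := m) p R] with x a1 a2
      rw [a1, a2]
    have e2 : I (w * (sob m).Γ (z r) (z r)) = ∫ x, cutoff p R x * (sob m).Γ (z r) (z r) x ∂m := by
      refine integral_congr_ae ?_
      filter_upwards [mul_ae w ((sob m).Γ (z r) (z r)), cw_ae (m := m) p R] with x a1 a2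
      rw [a1, a2]
    refine ⟨?_, ?_, ?_⟩
    · rw [e2, ← integral_sub i1 i2]
      refine integral_congr_ae (Eventually.of_forall fun x => ?_)
      ring
    · filter_upwards [zr_Γ_le (m := m) (p := p) hfin (hτ hr'.1) hC₀] with x hx
      exact mul_nonneg (cutoff_nonneg _ _ _) (sub_nonneg.2 hx)
    · refine (i1.sub i2).congr (Eventually.of_forall fun x => ?_)
      simp only [Pi.sub_apply]
      ring
  have hzero : ∫ r in Ioc (0 : ℝ) 1, ((∫ x, cutoff p R x * Gz p s₀ C₀ r x ∂m) -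
      I (w * (sob m).Γ (z r) (z r))) = 0 := by
    rw [integral_sub hfub1 hiz2]
    have h1 : ∫ r in (0 : ℝ)..1, -(1 / 2) * I (w * (sob m).Γ (z r) (z r)) =
        -(1 / 2) * ∫ r in Ioc (0 : ℝ) 1, I (w * (sob m).Γ (z r) (z r)) := by
      rw [intervalIntegral.integral_of_le zero_le_one, integral_const_mul]
    have h2 : -(1 / 2) * ∫ r in Ioc (0 : ℝ) 1, I (w * (sob m).Γ (z r) (z r)) =
        -(1 / 2) * ∫ r in Ioc (0 : ℝ) 1, ∫ x, cutoff p R x * Gz p s₀ C₀ r x ∂m := by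
      rw [← h1, hint, ← hfub2]
    linarith
  have hnn : 0 ≤ᵐ[volume.restrict (Ioc (0 : ℝ) 1)] fun r =>
      (∫ x, cutoff p R x * Gz p s₀ C₀ r x ∂m) - I (w * (sob m).Γ (z r) (z r)) := by
    filter_upwards [ae_restrict_mem measurableSet_Ioc] with r hr
    obtain ⟨e1, e2, -⟩ := hdiff r hr
    show 0 ≤ _
    rw [e1]
    exact integral_nonneg_of_ae e2
  have hae := (integral_eq_zero_iff_of_nonneg_ae hnn (hfub1.sub hiz2)).1 hzero
  filter_upwards [hae, ae_restrict_mem measurableSet_Ioc] with r hr1 hr2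
  obtain ⟨e1, e2, e3⟩ := hdiff r hr2
  have h1 : ∫ x, cutoff p R x * (Gz p s₀ C₀ r x - (sob m).Γ (z r) (z r) x) ∂m = 0 := by
    rw [← e1]; exact hr1
  filter_upwards [(integral_eq_zero_iff_of_nonneg_ae e2 e3).1 h1] with x hx hxR
  have h2 : cutoff p R x * (Gz p s₀ C₀ r x - (sob m).Γ (z r) (z r) x) = 0 := hx
  rw [cutoff_eq_one hxR, one_mul] at h2
  linarith

/-- comparison of two times -/
theorem zr_Γ_two (hfin : ∀ (x : M) (r : ℝ), m (Metric.ball x r) < ∞) (hs : 0 < s₀) (hC₀ : 0 ≤ C₀)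
    {r t : ℝ} (hr : 0 ≤ r) (ht : 0 ≤ t) :
    ∀ᵐ x ∂m, zr p s₀ C₀ t x < 0 → zr p s₀ C₀ r x < 0 →
      (t + s₀) ^ 2 * (sob m).Γ (cl m (zr p s₀ C₀ t)) (cl m (zr p s₀ C₀ t)) x =
      (r + s₀) ^ 2 * (sob m).Γ (cl m (zr p s₀ C₀ r)) (cl m (zr p s₀ C₀ r)) x := by
  have hτ : 0 < t + s₀ := by linarith
  have hρ : 0 < r + s₀ := by linarith
  have hWt := zr_W12 (m := m) (p := p) hfin hτ hC₀
  have hWr := zr_W12 (m := m) (p := p) hfin hρ hC₀
  have h1 := mslope_eq_of_sub_eq_const (hWt.const_mul (t + s₀)) (hWr.const_mul (r + s₀))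
    (-(C₀ * (t - r)))
  filter_upwards [h1, mslope_const_mul (t + s₀) hWt, mslope_const_mul (r + s₀) hWr,
    sob_Γ_self_ae (zr_memW (m := m) (p := p) hfin hτ hC₀),
    sob_Γ_self_ae (zr_memW (m := m) (p := p) hfin hρ hC₀),
    mslope_congr (zr_cl_ae (m := m) p s₀ C₀ t)
      (mem_sob_iff.1 (zr_memW (m := m) (p := p) hfin hτ hC₀)),
    mslope_congr (zr_cl_ae (m := m) p s₀ C₀ r)
      (mem_sob_iff.1 (zr_memW (m := m) (p := p) hfin hρ hC₀))]
    with x a1 a2 a3 a4 a5 a6 a7 hxt hxr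
  rw [a4, a5, a6, a7]
  have e1 : (t + s₀) * zr p s₀ C₀ t x - (r + s₀) * zr p s₀ C₀ r x = -(C₀ * (t - r)) := by
    rw [zr_eq hτ ((zr_neg_iff hτ).1 hxt), zr_eq hρ ((zr_neg_iff hρ).1 hxr)]
    field_simp
    ring
  have e2 := a1 e1
  rw [a2, a3, abs_of_pos hτ, abs_of_pos hρ] at e2
  rw [← mul_pow, ← mul_pow, e2]

/-- **Hamilton-Jacobi equality for the radial potentials** -/
theorem hj_zr (hfin : ∀ (x : M) (r : ℝ), m (Metric.ball x r) < ∞) (hC : IsDir (sob m))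
    (hs : 0 < s₀) (hC₀ : 0 ≤ C₀) {u : ℕ → ℝ → M →ₘ[m] ℝ} {ε : ℕ → ℝ} (hε0 : ∀ n, 0 ≤ ε n)
    (hε : Tendsto ε atTop (𝓝 0)) {D : ℝ} (hD : 0 ≤ D)
    (hu : ∀ n, ∀ t ∈ Icc (0 : ℝ) 1, (sob m).IsLap (u n t) ((sob m).lap (u n t)))
    (hlip : ∀ n, ∀ t ∈ Icc (0 : ℝ) 1, ∀ᵐ x ∂m, (sob m).Γ (u n t) (u n t) x ≤ D ^ 2)
    (hpde : ∀ n, ∀ t ∈ Icc (0 : ℝ) 1, Tendsto (fun r => I (((r - t)⁻¹ • (u n r - u n t) -
      ((ε n / 2) • (sob m).lap (u n t) - (2 : ℝ)⁻¹ • (sob m).Γ (u n t) (u n t))) ^ 2))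
      (𝓝[Icc 0 1 \ {t}] t) (𝓝 0))
    (hconv : ∀ t ∈ Icc (0 : ℝ) 1,
      Tendsto (fun n => I ((u n t - cl m (zr p s₀ C₀ t)) ^ 2)) atTop (𝓝 0))
    (hgrad : ∀ t ∈ Ioc (0 : ℝ) 1, ∀ w : M →ₘ[m] ℝ, 0 ≤ w → MemLp w 1 m →
      Tendsto (fun n => I (w * (sob m).Γ (u n t - cl m (zr p s₀ C₀ t))
        (u n t - cl m (zr p s₀ C₀ t)))) atTop (𝓝 0)) :
    ∀ t ∈ Icc (0 : ℝ) 1, ∀ᵐ x ∂m,
    (zr p s₀ C₀ t x < 0 → (sob m).Γ (cl m (zr p s₀ C₀ t)) (cl m (zr p s₀ C₀ t)) x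
      = (dist p x / (t + s₀)) ^ 2) ∧
    (zr p s₀ C₀ t x = 0 → (sob m).Γ (cl m (zr p s₀ C₀ t)) (cl m (zr p s₀ C₀ t)) x = 0) := by
  intro t ht
  have hτ : 0 < t + s₀ := by linarith [ht.1]
  set R : ℝ := 2 * C₀ * (1 + s₀) + 1 with hR
  have hR1 : 1 ≤ R := by rw [hR]; have : 0 ≤ 2 * C₀ * (1 + s₀) := by positivity
                         linarith
  have hgood := hj_ae (m := m) (p := p) hfin hC hs hC₀ hε0 hε hD hu hlip hpde hconv hgrad R
  -- good times tending to 1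
  have hex : ∀ k : ℕ, ∃ r ∈ Ioo (1 - ((k : ℝ) + 1)⁻¹) 1, r ∈ Ioc (0 : ℝ) 1 ∧ ∀ᵐ x ∂m,
      dist x p ≤ R → (sob m).Γ (cl m (zr p s₀ C₀ r)) (cl m (zr p s₀ C₀ r)) x =
        Gz p s₀ C₀ r x := by
    intro k
    have hk : (0 : ℝ) < ((k : ℝ) + 1)⁻¹ := by positivity
    have hk1 : ((k : ℝ) + 1)⁻¹ ≤ 1 := inv_le_one_of_one_le₀ (by linarith [Nat.cast_nonneg (α := ℝ) k])
    have hsub : Ioo (1 - ((k : ℝ) + 1)⁻¹) 1 ⊆ Ioc (0 : ℝ) 1 := fun r hr =>
      ⟨by linarith [hr.1], hr.2.le⟩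
    have h1 := ae_restrict_of_ae_restrict_of_subset hsub hgood
    have h2 : (volume.restrict (Ioo (1 - ((k : ℝ) + 1)⁻¹) 1)) ≠ 0 := by
      rw [Ne, Measure.restrict_eq_zero, Real.volume_Ioo]
      simp only [sub_sub_cancel, ENNReal.ofReal_eq_zero, not_le]
      exact hk
    haveI : (ae (volume.restrict (Ioo (1 - ((k : ℝ) + 1)⁻¹) 1))).NeBot := ae_neBot.2 h2
    obtain ⟨r, hr1, hr2⟩ := (h1.and (ae_restrict_mem measurableSet_Ioo)).exists
    exact ⟨r, hr2, hsub hr2, hr1⟩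
  choose r hr1 hr2 hr3 using hex
  have hall : ∀ᵐ x ∂m, ∀ k, (dist x p ≤ R → (sob m).Γ (cl m (zr p s₀ C₀ (r k)))
      (cl m (zr p s₀ C₀ (r k))) x = Gz p s₀ C₀ (r k) x) ∧
      (zr p s₀ C₀ t x < 0 → zr p s₀ C₀ (r k) x < 0 →
      (t + s₀) ^ 2 * (sob m).Γ (cl m (zr p s₀ C₀ t)) (cl m (zr p s₀ C₀ t)) x =
      (r k + s₀) ^ 2 * (sob m).Γ (cl m (zr p s₀ C₀ (r k))) (cl m (zr p s₀ C₀ (r k))) x) := by
    rw [ae_all_iff]
    intro k
    filter_upwards [hr3 k, zr_Γ_two (m := m) (p := p) hfin hs hC₀ (hr2 k).1.le ht.1] with x a1 a2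
    exact ⟨a1, a2⟩
  filter_upwards [hall, zr_Γ_le (m := m) (p := p) hfin hτ hC₀,
    hC.Γ_nonneg_ae (zr_memW (m := m) (p := p) hfin hτ hC₀)] with x hx1 hx2 hx3
  constructor
  · intro hz
    have hd : dist p x ^ 2 < 2 * C₀ * (t + s₀) := (zr_neg_iff hτ).1 hz
    have hCpos : 0 < C₀ := by
      by_contra hc
      have : C₀ = 0 := le_antisymm (not_lt.1 hc) hC₀
      rw [this] at hd
      nlinarith [sq_nonneg (dist p x)]
    have hd1 : dist p x ^ 2 < 2 * C₀ * (1 + s₀) := by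
      have := ht.2
      nlinarith
    have hdR : dist x p ≤ R := by
      rw [dist_comm]
      by_contra hc
      rw [not_le] at hc
      nlinarith [dist_nonneg (x := p) (y := x)]
    -- a good time with `z_r(x) < 0`
    obtain ⟨k, hk⟩ : ∃ k : ℕ, dist p x ^ 2 < 2 * C₀ * (r k + s₀) := by
      have hgap : 0 < (2 * C₀ * (1 + s₀) - dist p x ^ 2) / (2 * C₀) := by
        apply div_pos (by linarith) (by positivity)
      obtain ⟨k, hk⟩ := exists_nat_one_div_lt hgap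
      refine ⟨k, ?_⟩
      have h1 := (hr1 k).1
      rw [one_div] at hk
      rw [lt_div_iff₀ (by positivity)] at hk
      nlinarith
    have hρ : 0 < r k + s₀ := by linarith [(hr2 k).1]
    obtain ⟨b1, b2⟩ := hx1 k
    have e1 := b2 hz ((zr_neg_iff hρ).2 hk)
    rw [b1 hdR] at e1
    unfold Gz at e1
    rw [if_pos hk, div_pow, mul_div_cancel₀ _ (by positivity)] at e1
    rw [div_pow, eq_div_iff (by positivity), mul_comm]
    exact e1
  · intro hz
    refine le_antisymm (hx2.trans ?_) hx3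
    unfold Gz
    rw [if_neg]
    intro h
    have := (zr_neg_iff hτ).2 h
    rw [hz] at this
    exact lt_irrefl _ this

end main


/-- **Block A5hj**: the field `ULim.hj`. -/
theorem ulim_hj {K N : ℝ} (hstd : Std m K N) {p : M} {s₀ C₀ : ℝ} (hs : 0 < s₀) (hC₀ : 0 < C₀)
    {D : ℝ} {φ u : ℕ → ℝ → M →ₘ[m] ℝ}
    (hreg : ∀ᶠ n in atTop, (sob m).Reg (PA.en n) 0 1 (φ n) (u n))
    (hlip : ∀ᶠ n in atTop, ∀ t ∈ Icc (0 : ℝ) 1, ∀ᵐ x ∂m, (sob m).Γ (u n t) (u n t) x ≤ D ^ 2)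
    (hconv : ∀ t ∈ Icc (0 : ℝ) 1,
      Tendsto (fun n => I ((u n t - cl m (zr p s₀ C₀ t)) ^ 2)) atTop (𝓝 0))
    (hgrad : ∀ t ∈ Ioc (0 : ℝ) 1, ∀ w : M →ₘ[m] ℝ, 0 ≤ w → MemLp w 1 m →
      Tendsto (fun n => I (w * (sob m).Γ (u n t - cl m (zr p s₀ C₀ t))
        (u n t - cl m (zr p s₀ C₀ t)))) atTop (𝓝 0)) :
    ∀ t ∈ Icc (0 : ℝ) 1, ∀ᵐ x ∂m,
    (zr p s₀ C₀ t x < 0 → (sob m).Γ (cl m (zr p s₀ C₀ t)) (cl m (zr p s₀ C₀ t)) x
      = (dist p x / (t + s₀)) ^ 2) ∧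
    (zr p s₀ C₀ t x = 0 → (sob m).Γ (cl m (zr p s₀ C₀ t)) (cl m (zr p s₀ C₀ t)) x = 0) := by
  have hfin := hstd.hfin
  haveI : SigmaFinite m := sigmaFinite_of_ball hfin
  have hC : IsGamma (sob m) := isGamma_sob hfin hstd.rcd.quadratic hstd.rcd.sobolev_to_lipschitz
  have hB : (sob m).BEi K := hC.bei hstd.hN hstd.rcd.bochner
  obtain ⟨N0, hN0⟩ := eventually_atTop.1 (hreg.and hlip)
  refine hj_zr (m := m) hfin hC.toIsDir hs hC₀.le (u := fun n => u (n + N0))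
    (ε := fun n => PA.en (n + N0)) (D := |D|) ?_ ?_ (abs_nonneg D) ?_ ?_ ?_ ?_ ?_
  · intro n
    unfold PA.en
    positivity
  · have h1 : Tendsto PA.en atTop (𝓝 0) := tendsto_inv_succ
    exact h1.comp (tendsto_add_atTop_nat N0)
  · intro n t ht
    exact hC.test_isLap ((hN0 (n + N0) (Nat.le_add_left _ _)).1.u_mem t ht).1
  · intro n t ht
    rw [sq_abs]
    exact (hN0 (n + N0) (Nat.le_add_left _ _)).2 t ht
  · intro n t ht
    have hR := (hN0 (n + N0) (Nat.le_add_left _ _)).1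
    have hd := hR.du t ht
    refine squeeze_zero' (Eventually.of_forall fun r => I_sq_nonneg _) ?_ hd
    filter_upwards [self_mem_nhdsWithin] with r hr
    refine hC.toIsDir.I_sq_le_nrm2 ?_
    have hut := (hR.u_mem t ht).1
    have hur := (hR.u_mem r hr.1).1
    have hW1 : u (n + N0) t ∈ (sob m).W := (hC.test_A hut).1
    have hW2 : u (n + N0) r ∈ (sob m).W := (hC.test_A hur).1
    exact hC.toIsDir.sub_mem (hC.toIsDir.smul_mem _ _ (hC.toIsDir.sub_mem hW2 hW1))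
      (hC.toIsDir.sub_mem (hC.toIsDir.smul_mem _ _ (hC.test_lap_mem hut))
        (hC.toIsDir.smul_mem _ _ (hC.Γ_self_mem hB hut)))
  · intro t ht
    exact (hconv t ht).comp (tendsto_add_atTop_nat N0)
  · intro t ht w hw hw1
    exact (hgrad t ht w hw hw1).comp (tendsto_add_atTop_nat N0)

end Vale.Agent.P233.H106
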