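import Vale.Agent.P233.Bd3.B1
import Mathlib.MeasureTheory.Function.ConvergenceInMeasure
import Mathlib.MeasureTheory.Constructions.Polish.StronglyMeasurable
import Mathlib.MeasureTheory.Function.LpSpace.Complete
import Mathlib.MeasureTheory.Integral.Prod

/-! P233, toolbox JM: a strongly measurable curve `t ↦ f t` of classes in `Lp E p m` has a jointly
measurable representative `F`, with `F t = f t` almost everywhere FOR EVERY `t`. -/

set_option linter.all false

open MeasureTheory Filter Topology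
open scoped ENNReal NNReal InnerProductSpace

namespace Vale.Agent.P233.H106

section core

variable {T M E : Type*} [MeasurableSpace T] [MeasurableSpace M] {m : Measure M}
  [NormedAddCommGroup E] {p : ℝ≥0∞}

/-- a simple function with values in `Lp` -/
theorem simple_uncurry (f : SimpleFunc T (Lp E p m)) :
    StronglyMeasurable (fun z : T × M => (f z.1 : M → E) z.2) := by
  classical
  have h : (fun z : T × M => (f z.1 : M → E) z.2) = fun z => ∑ c ∈ f.range,
      (Prod.fst ⁻¹' (f ⁻¹' {c})).indicator (fun z : T × M => (c : M → E) z.2) z := by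
    funext z
    rw [Finset.sum_eq_single (f z.1)]
    · simp
    · intro b _ hb
      rw [Set.indicator_of_notMem]
      simpa using fun h => hb h.symm
    · intro h
      exact absurd (f.mem_range_self z.1) h
  rw [h]
  refine Finset.stronglyMeasurable_fun_sum _ fun c _ => ?_
  exact ((Lp.stronglyMeasurable c).comp_measurable measurable_snd).indicator
    (measurable_fst (f.measurableSet_fiber c))

/-- `z ↦ G (N z) z` -/
theorem nat_comp {Z : Type*} [MeasurableSpace Z] {G : ℕ → Z → E} (hG : ∀ n, StronglyMeasurable (G n))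
    {N : Z → ℕ} (hN : Measurable N) : StronglyMeasurable (fun z => G (N z) z) := by
  borelize E
  rw [stronglyMeasurable_iff_measurable_separable]
  constructor
  · have h1 : Measurable (fun q : Z × ℕ => G q.2 q.1) :=
      measurable_from_prod_countable_left fun y => (hG y).measurable
    exact h1.comp (measurable_id.prodMk hN)
  · refine (TopologicalSpace.IsSeparable.iUnion fun n => (hG n).isSeparable_range).mono ?_
    rintro _ ⟨z, rfl⟩
    exact Set.mem_iUnion.2 ⟨N z, ⟨z, rfl⟩⟩

/-- fast convergence in `Lp` implies convergence a.e. to the limit -/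
theorem ae_tendsto_fast [CompleteSpace E] (hp1 : 1 ≤ p) {h : ℕ → Lp E p m} {g : Lp E p m}
    (hh : haveI := Fact.mk hp1; ∀ k, ‖h k - g‖ < (1 / 2 : ℝ) ^ (k + 2)) :
    ∀ᵐ x ∂m, Tendsto (fun k => h k x) atTop (𝓝 (g x)) := by
  haveI := Fact.mk hp1
  have hsum : ∑' i : ℕ, ENNReal.ofReal ((1 / 2 : ℝ) ^ i) ≠ ∞ := by
    have : Summable fun i : ℕ => (1 / 2 : ℝ) ^ i := summable_geometric_two
    exact this.tsum_ofReal_ne_top
  have h1 : ∀ᵐ x ∂m, ∃ l : E, Tendsto (fun k => h k x) atTop (𝓝 l) := by
    refine Lp.ae_tendsto_of_cauchy_eLpNorm (fun n => Lp.aestronglyMeasurable _) hp1 hsum ?_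
    intro N n k hn hk
    have e1 : eLpNorm (⇑(h n) - ⇑(h k)) p m = ENNReal.ofReal ‖h n - h k‖ := by
      rw [← eLpNorm_congr_ae (Lp.coeFn_sub (h n) (h k)), Lp.norm_def, ENNReal.ofReal_toReal]
      exact (Lp.memLp _).2.ne
    rw [e1]
    refine (ENNReal.ofReal_lt_ofReal_iff (by positivity)).2 ?_
    have e2 : ∀ j, N ≤ j → ‖h j - g‖ < (1 / 2 : ℝ) ^ N / 4 := fun j hj =>
      calc ‖h j - g‖ < (1 / 2 : ℝ) ^ (j + 2) := hh j
        _ ≤ (1 / 2 : ℝ) ^ (N + 2) := pow_le_pow_of_le_one (by norm_num) (by norm_num) (by omega)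
        _ = (1 / 2 : ℝ) ^ N / 4 := by rw [pow_add]; norm_num; ring
    have e3 : ‖h n - h k‖ ≤ ‖h n - g‖ + ‖h k - g‖ := by
      have : h n - h k = (h n - g) - (h k - g) := by abel
      rw [this]; exact norm_sub_le _ _
    have e4 : (0 : ℝ) < (1 / 2 : ℝ) ^ N := by positivity
    linarith [e2 n hn, e2 k hk]
  have h2 : Tendsto (fun k => ‖h k - g‖) atTop (𝓝 0) := by
    refine squeeze_zero (fun k => norm_nonneg _) (fun k => (hh k).le) ?_
    exact (tendsto_pow_atTop_nhds_zero_of_lt_one (by norm_num) (by norm_num)).comp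
      (tendsto_add_atTop_nat 2)
  have h3 : Tendsto (fun k => eLpNorm (⇑(h k) - ⇑g) p m) atTop (𝓝 0) := by
    have e1 : ∀ k, eLpNorm (⇑(h k) - ⇑g) p m = ENNReal.ofReal ‖h k - g‖ := by
      intro k
      rw [← eLpNorm_congr_ae (Lp.coeFn_sub (h k) g), Lp.norm_def, ENNReal.ofReal_toReal]
      exact (Lp.memLp _).2.ne
    simp_rw [e1]
    rw [← ENNReal.ofReal_zero]
    exact ENNReal.tendsto_ofReal h2
  have h4 : TendstoInMeasure m (fun k => ⇑(h k)) atTop g :=
    tendstoInMeasure_of_tendsto_eLpNorm (by positivity) (fun n => Lp.aestronglyMeasurable _)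
      (Lp.aestronglyMeasurable _) h3
  obtain ⟨ns, hns, h5⟩ := h4.exists_seq_tendsto_ae
  filter_upwards [h1, h5] with x ⟨l, hl⟩ h6
  have h7 := hl.comp hns.tendsto_atTop
  rwa [tendsto_nhds_unique h6 h7]

/-- **Joint measurability.** -/
theorem exists_uncurry [CompleteSpace E] (hp1 : 1 ≤ p) {f : T → Lp E p m}
    (hf : haveI := Fact.mk hp1; StronglyMeasurable f) :
    ∃ F : T → M → E, StronglyMeasurable (Function.uncurry F) ∧ ∀ t, F t =ᵐ[m] f t := by
  haveI := Fact.mk hp1
  classical
  have hs : ∀ t, Tendsto (fun n => hf.approx n t) atTop (𝓝 (f t)) := hf.tendsto_approx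
  have hex : ∀ (k : ℕ) (t : T), ∃ n, ‖hf.approx n t - f t‖ < (1 / 2 : ℝ) ^ (k + 2) := by
    intro k t
    have h1 : Tendsto (fun n => ‖hf.approx n t - f t‖) atTop (𝓝 0) :=
      tendsto_iff_norm_sub_tendsto_zero.1 (hs t)
    exact ((tendsto_order.1 h1).2 _ (by positivity)).exists
  have hmeas : ∀ (k n : ℕ), MeasurableSet {t | ‖hf.approx n t - f t‖ < (1 / 2 : ℝ) ^ (k + 2)} := by
    intro k n
    exact measurableSet_lt
      (((hf.approx n).stronglyMeasurable.sub hf).norm.measurable) measurable_const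
  set N : ℕ → T → ℕ := fun k t => Nat.find (hex k t) with hN
  have hNm : ∀ k, Measurable (N k) := fun k => measurable_find (hex k) (hmeas k)
  have hNs : ∀ k t, ‖hf.approx (N k t) t - f t‖ < (1 / 2 : ℝ) ^ (k + 2) := fun k t =>
    Nat.find_spec (hex k t)
  set H : ℕ → T × M → E := fun k z => (hf.approx (N k z.1) z.1 : M → E) z.2 with hH
  have hHm : ∀ k, StronglyMeasurable (H k) := by
    intro k
    exact nat_comp (G := fun n (z : T × M) => (hf.approx n z.1 : M → E) z.2)
      (fun n => simple_uncurry (hf.approx n)) (N := fun z => N k z.1)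
      ((hNm k).comp measurable_fst)
  refine ⟨fun t x => limUnder atTop (fun k => H k (t, x)), ?_, ?_⟩
  · exact StronglyMeasurable.limUnder (l := atTop) (f := fun k z => H k z) hHm
  · intro t
    have h1 := ae_tendsto_fast (m := m) hp1 (h := fun k => hf.approx (N k t) t) (g := f t)
      (fun k => hNs k t)
    filter_upwards [h1] with x hx
    exact hx.limUnder_eq

end core

end Vale.Agent.P233.H106
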