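import Vale.Agent.P233.H106.JM1

/-! P233, toolbox JM: weakly measurable curves in separable Hilbert spaces, and curves of classes. -/

set_option linter.all false

open MeasureTheory Filter Topology
open scoped ENNReal NNReal InnerProductSpace

namespace Vale.Agent.P233.H106

section hilbert

variable {T : Type*} [MeasurableSpace T]

/-- a map into a separable metric space is measurable if the distances to a dense sequence are -/
theorem measurable_of_dist {X : Type*} [PseudoMetricSpace X] [TopologicalSpace.SeparableSpace X]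
    [MeasurableSpace X] [BorelSpace X] {f : T → X}
    (h : ∀ x : X, Measurable fun t => dist (f t) x) : Measurable f := by
  rcases isEmpty_or_nonempty X with hX | hX
  · haveI : IsEmpty T := ⟨fun t => hX.elim (f t)⟩
    exact measurable_of_empty f
  refine measurable_of_isOpen fun U hU => ?_
  set d : ℕ → X := TopologicalSpace.denseSeq X with hd
  have hdd : DenseRange d := TopologicalSpace.denseRange_denseSeq X
  have h1 : f ⁻¹' U = ⋃ (n : ℕ) (q : ℚ) (_ : Metric.ball (d n) (q : ℝ) ⊆ U),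
      {t | dist (f t) (d n) < (q : ℝ)} := by
    ext t
    simp only [Set.mem_preimage, Set.mem_iUnion, Set.mem_setOf_eq, exists_prop]
    constructor
    · intro ht
      obtain ⟨r, hr, hrU⟩ := Metric.isOpen_iff.1 hU (f t) ht
      obtain ⟨n, hn⟩ := hdd.exists_dist_lt (f t) (show (0 : ℝ) < r / 2 by positivity)
      obtain ⟨q, hq1, hq2⟩ := exists_rat_btwn hn
      refine ⟨n, q, fun y hy => hrU ?_, hq1⟩
      rw [Metric.mem_ball] at *
      calc dist y (f t) ≤ dist y (d n) + dist (d n) (f t) := dist_triangle _ _ _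
        _ < q + q := by rw [dist_comm (d n)]; exact add_lt_add hy hq1
        _ < r := by linarith
    · rintro ⟨n, q, hq, ht⟩
      exact hq (by simpa [Metric.mem_ball] using ht)
  rw [h1]
  refine MeasurableSet.iUnion fun n => MeasurableSet.iUnion fun q => MeasurableSet.iUnion fun _ => ?_
  exact measurableSet_lt (h _) measurable_const

variable {H : Type*} [NormedAddCommGroup H] [InnerProductSpace ℝ H]
  [TopologicalSpace.SeparableSpace H]

/-- the norm from inner products with a dense sequence -/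
theorem norm_le_iff_dense {d : ℕ → H} (hd : DenseRange d) (x : H) {r : ℝ} :
    ‖x‖ ≤ r ↔ 0 ≤ r ∧ ∀ n, ⟪d n, x⟫_ℝ ≤ r * ‖d n‖ := by
  constructor
  · intro h
    refine ⟨(norm_nonneg _).trans h, fun n => ?_⟩
    calc ⟪d n, x⟫_ℝ ≤ ‖d n‖ * ‖x‖ := real_inner_le_norm _ _
      _ ≤ r * ‖d n‖ := by rw [mul_comm]; exact mul_le_mul_of_nonneg_right h (norm_nonneg _)
  · rintro ⟨hr, h⟩
    have h1 : ∀ y : H, ⟪y, x⟫_ℝ ≤ r * ‖y‖ := by
      intro y
      have hc : IsClosed {y : H | ⟪y, x⟫_ℝ ≤ r * ‖y‖} :=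
        isClosed_le (by fun_prop) (by fun_prop)
      have : y ∈ closure (Set.range d) := hd y
      exact hc.closure_subset_iff.2 (by rintro _ ⟨n, rfl⟩; exact h n) this
    have h2 := h1 x
    rw [real_inner_self_eq_norm_sq] at h2
    rcases eq_or_lt_of_le (norm_nonneg x) with h0 | h0
    · rw [← h0]; exact hr
    · nlinarith

/-- weak measurability in a separable Hilbert space -/
theorem measurable_of_inner [MeasurableSpace H] [BorelSpace H] {f : T → H}
    (h : ∀ g : H, Measurable fun t => ⟪g, f t⟫_ℝ) : Measurable f := by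
  rcases isEmpty_or_nonempty H with hX | hX
  · haveI : IsEmpty T := ⟨fun t => hX.elim (f t)⟩
    exact measurable_of_empty f
  refine measurable_of_dist fun x => ?_
  refine measurable_of_Iic fun r => ?_
  set d : ℕ → H := TopologicalSpace.denseSeq H with hd
  have hdd : DenseRange d := TopologicalSpace.denseRange_denseSeq H
  have h1 : (fun t => dist (f t) x) ⁻¹' Set.Iic r =
      {t | 0 ≤ r} ∩ ⋂ n, {t | ⟪d n, f t⟫_ℝ - ⟪d n, x⟫_ℝ ≤ r * ‖d n‖} := by
    ext t
    simp only [Set.mem_preimage, Set.mem_Iic, Set.mem_inter_iff, Set.mem_setOf_eq, Set.mem_iInter,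
      dist_eq_norm]
    rw [norm_le_iff_dense hdd]
    simp only [inner_sub_right]
  rw [h1]
  refine (MeasurableSet.const _).inter (MeasurableSet.iInter fun n => ?_)
  exact measurableSet_le ((h _).sub measurable_const) measurable_const

/-- the same with test vectors in a dense set -/
theorem measurable_of_inner_dense [MeasurableSpace H] [BorelSpace H] {f : T → H} {D : Set H}
    (hD : Dense D) (h : ∀ g ∈ D, Measurable fun t => ⟪g, f t⟫_ℝ) : Measurable f := by
  refine measurable_of_inner fun g => ?_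
  obtain ⟨u, hu, hlim⟩ := mem_closure_iff_seq_limit.1 (hD g)
  refine measurable_of_tendsto_metrizable (fun n => h (u n) (hu n)) ?_
  rw [tendsto_pi_nhds]
  intro t
  exact Filter.Tendsto.inner hlim tendsto_const_nhds

end hilbert

section classes

variable {T M : Type*} [MeasurableSpace T] [MeasurableSpace M] {m : Measure M}

/-- a class in `L²` as an element of `Lp` -/
noncomputable def tl {f : M →ₘ[m] ℝ} (hf : MemLp f 2 m) : Lp ℝ 2 m := hf.toLp

theorem tl_ae {f : M →ₘ[m] ℝ} (hf : MemLp f 2 m) : ⇑(tl hf) =ᵐ[m] f := hf.coeFn_toLp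

theorem tl_surj (g : Lp ℝ 2 m) : tl (Lp.memLp g) = g := by
  unfold tl
  exact Lp.toLp_coeFn g _

/-- **Joint measurability of a weakly measurable curve of classes in `L²`** -/
theorem exists_rep [IsSeparable m] {f : T → M →ₘ[m] ℝ} (hmem : ∀ t, MemLp (f t) 2 m)
    {D : Set (M →ₘ[m] ℝ)} (hD : ∀ g ∈ D, MemLp g 2 m)
    (hDd : ∀ g : M →ₘ[m] ℝ, MemLp g 2 m → ∀ ε > 0, ∃ k ∈ D, I ((g - k) ^ 2) < ε)
    (h : ∀ g ∈ D, Measurable fun t => I (f t * g)) :
    ∃ F : T → M → ℝ, Measurable (Function.uncurry F) ∧ ∀ t, F t =ᵐ[m] f t := by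
  haveI : Fact ((1 : ℝ≥0∞) ≤ 2) := ⟨by norm_num⟩
  haveI : Fact ((2 : ℝ≥0∞) ≠ ∞) := ⟨by simp⟩
  haveI : SecondCountableTopology (Lp ℝ 2 m) := inferInstance
  borelize ↥(Lp ℝ 2 m)
  have h1 : Measurable fun t => tl (hmem t) := by
    refine measurable_of_inner_dense (D := {g : Lp ℝ 2 m | ∃ k, ∃ hk : k ∈ D, g = tl (hD k hk)})
      ?_ ?_
    · intro g
      rw [Metric.mem_closure_iff]
      intro ε hε
      obtain ⟨k, hk, hk2⟩ := hDd g (Lp.memLp g) (ε ^ 2) (by positivity)
      refine ⟨tl (hD k hk), ⟨k, hk, rfl⟩, ?_⟩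
      have h2 : I (((g : M →ₘ[m] ℝ) - k) ^ 2) = ‖g - tl (hD k hk)‖ ^ 2 := by
        rw [I_sq_eq_norm (mem_sub (Lp.memLp g) (hD k hk))]
        congr 2
        have e1 : (mem_sub (Lp.memLp g) (hD k hk)).toLp = tl (Lp.memLp g) - tl (hD k hk) := by
          refine Lp.ext ?_
          refine (MemLp.coeFn_toLp _).trans ?_
          filter_upwards [sub_ae (g : M →ₘ[m] ℝ) k, Lp.coeFn_sub (tl (Lp.memLp g)) (tl (hD k hk)),
            tl_ae (Lp.memLp g), tl_ae (hD k hk)] with x a1 a2 a3 a4
          rw [a1, a2, Pi.sub_apply, a3, a4]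
        rw [e1, tl_surj]
      rw [h2] at hk2
      rw [dist_eq_norm]
      exact lt_of_pow_lt_pow_left₀ 2 hε.le hk2
    · rintro _ ⟨k, hk, rfl⟩
      have h3 : (fun t => ⟪tl (hD k hk), tl (hmem t)⟫_ℝ) = fun t => I (f t * k) := by
        funext t
        rw [real_inner_comm]
        exact (I_mul_eq_inner (hmem t) (hD k hk)).symm
      rw [h3]
      exact h k hk
  obtain ⟨F, hF, hF2⟩ := exists_uncurry (m := m) (p := 2) (by norm_num)
    (f := fun t => tl (hmem t)) h1.stronglyMeasurable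
  exact ⟨F, hF.measurable, fun t => (hF2 t).trans (tl_ae (hmem t))⟩

/-- all `g ∈ L²` -/
theorem exists_rep' [IsSeparable m] {f : T → M →ₘ[m] ℝ} (hmem : ∀ t, MemLp (f t) 2 m)
    (h : ∀ g : M →ₘ[m] ℝ, MemLp g 2 m → Measurable fun t => I (f t * g)) :
    ∃ F : T → M → ℝ, Measurable (Function.uncurry F) ∧ ∀ t, F t =ᵐ[m] f t := by
  refine exists_rep hmem (D := {g | MemLp g 2 m}) (fun g hg => hg) (fun g hg ε hε => ⟨g, hg, ?_⟩)
    (fun g hg => h g hg)
  have : (g - g) ^ 2 = (0 : M →ₘ[m] ℝ) := by rw [sub_self]; ring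
  rw [this, I_zero]
  exact hε

/-- test functions in `W` -/
theorem exists_repW [IsSeparable m] {C : Calc m} (hC : IsDir C) {f : T → M →ₘ[m] ℝ}
    (hmem : ∀ t, MemLp (f t) 2 m) (h : ∀ g ∈ C.W, Measurable fun t => I (f t * g)) :
    ∃ F : T → M → ℝ, Measurable (Function.uncurry F) ∧ ∀ t, F t =ᵐ[m] f t :=
  exists_rep hmem (D := C.W) hC.memLp (fun g hg ε hε => hC.dense_L2 g hg ε hε) h

/-- only the times in `S` -/
theorem exists_rep_on [IsSeparable m] {S : Set T} (hS : MeasurableSet S) {f : T → M →ₘ[m] ℝ}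
    (hmem : ∀ t ∈ S, MemLp (f t) 2 m) {D : Set (M →ₘ[m] ℝ)} (hD : ∀ g ∈ D, MemLp g 2 m)
    (hDd : ∀ g : M →ₘ[m] ℝ, MemLp g 2 m → ∀ ε > 0, ∃ k ∈ D, I ((g - k) ^ 2) < ε)
    (h : ∀ g ∈ D, Measurable fun t : S => I (f t * g)) :
    ∃ F : T → M → ℝ, Measurable (Function.uncurry F) ∧ ∀ t ∈ S, F t =ᵐ[m] f t := by
  classical
  have h1 := exists_rep (T := T) (f := fun t => if t ∈ S then f t else 0) (D := D) ?_ hD hDd ?_
  · obtain ⟨F, hF, hF2⟩ := h1
    refine ⟨F, hF, fun t ht => (hF2 t).trans ?_⟩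
    simp [ht]
  · intro t
    by_cases ht : t ∈ S
    · simp only [ht, if_true]; exact hmem t ht
    · simp only [ht, if_false]; exact mem_zero
  · intro g hg
    have h2 : (fun t => I ((if t ∈ S then f t else 0) * g)) =
        fun t => if ht : t ∈ S then I (f (⟨t, ht⟩ : S) * g) else 0 := by
      funext t
      by_cases ht : t ∈ S
      · simp [ht]
      · simp only [ht, if_false, dif_neg, not_false_iff]
        rw [zero_mul, I_zero]
    rw [h2]
    exact Measurable.dite (h g hg) measurable_const hS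

end classes

end Vale.Agent.P233.H106
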