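import Vale.Agent.P233.H106.JM2
import Vale.Agent.P233.Bd3.B5

/-! P233, toolbox JM: weakly measurable curves in `W`, their gradients, Fubini, transport. -/

set_option linter.all false

open MeasureTheory Filter Topology
open scoped ENNReal NNReal InnerProductSpace

namespace Vale.Agent.P233.H106

variable {T M : Type*} [MeasurableSpace T] [MeasurableSpace M] {m : Measure M} {C : Calc m}

section curves

variable {u v : T → M →ₘ[m] ℝ}

/-- a weakly measurable curve in `W` -/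
structure WM (C : Calc m) (u : T → M →ₘ[m] ℝ) : Prop where
  mem : ∀ t, u t ∈ C.W
  meas : ∀ g ∈ C.W, Measurable fun t => I (u t * g)

theorem I_mul_comm (f g : M →ₘ[m] ℝ) : I (f * g) = I (g * f) := by rw [mul_comm]

theorem abs_I_mul_le {f g : M →ₘ[m] ℝ} (hf : MemLp f 2 m) (hg : MemLp g 2 m) :
    |I (f * g)| ≤ Real.sqrt (I (f ^ 2)) * Real.sqrt (I (g ^ 2)) := by
  rw [← Real.sqrt_mul (I_sq_nonneg f)]
  exact Real.abs_le_sqrt (I_cs hf hg)

/-- all `g ∈ L²` -/
theorem meas_mul (hC : IsDir C) {f : T → M →ₘ[m] ℝ} (hmem : ∀ t, MemLp (f t) 2 m)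
    (h : ∀ g ∈ C.W, Measurable fun t => I (f t * g)) {g : M →ₘ[m] ℝ} (hg : MemLp g 2 m) :
    Measurable fun t => I (f t * g) := by
  choose k hk hk2 using fun n : ℕ => hC.dense_L2 g hg (((n : ℝ) + 1)⁻¹ ^ 2) (by positivity)
  refine measurable_of_tendsto_metrizable (fun n => h (k n) (hk n)) ?_
  rw [tendsto_pi_nhds]
  intro t
  rw [tendsto_iff_norm_sub_tendsto_zero]
  have h1 : ∀ n, ‖I (f t * k n) - I (f t * g)‖ ≤ Real.sqrt (I (f t ^ 2)) * ((n : ℝ) + 1)⁻¹ := by
    intro n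
    have hkn := hC.memLp _ (hk n)
    rw [← I_sub (mem_mul_22 (hmem t) hkn) (mem_mul_22 (hmem t) hg), ← mul_sub, Real.norm_eq_abs]
    refine (abs_I_mul_le (hmem t) (mem_sub hkn hg)).trans
      (mul_le_mul_of_nonneg_left ?_ (Real.sqrt_nonneg _))
    refine Real.sqrt_le_iff.2 ⟨by positivity, ?_⟩
    have : (k n - g) ^ 2 = (g - k n) ^ 2 := by ring
    rw [this]
    exact (hk2 n).le
  refine squeeze_zero (fun n => norm_nonneg _) h1 ?_
  have := (tendsto_inv_succ).const_mul (Real.sqrt (I (f t ^ 2)))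
  simpa using this

namespace WM

/-- `t ↦ ∫ Γ(u_t, w)` -/
theorem measΓ (hC : IsDir C) (hu : WM C u) {w : M →ₘ[m] ℝ} (hw : w ∈ C.W) :
    Measurable fun t => I (C.Γ (u t) w) := by
  have hw2 := hC.memLp w hw
  have hl : ∀ n : ℕ, (0 : ℝ) < ((n : ℝ) + 1)⁻¹ := fun n => by positivity
  set wn : ℕ → M →ₘ[m] ℝ := fun n => C.J ((n : ℝ) + 1)⁻¹ w with hwn
  have hwW : ∀ n, wn n ∈ C.W := fun n => hC.J_mem (hl n) hw2
  have h1 : ∀ n, Measurable fun t => I (C.Γ (u t) (wn n)) := by
    intro n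
    have e : (fun t => I (C.Γ (u t) (wn n))) =
        fun t => -I (u t * (((n : ℝ) + 1)⁻¹⁻¹ • (wn n - w))) := by
      funext t
      rw [hC.symm _ (hu.mem t) _ (hwW n)]
      rw [I_mul_comm]
      exact (hC.J_isLap (hl n) hw2).2.2 (u t) (hu.mem t)
    rw [e]
    exact (meas_mul hC (fun t => hC.memLp _ (hu.mem t)) hu.meas
      (mem_smul _ (mem_sub (hC.memLp _ (hwW n)) hw2))).neg
  refine measurable_of_tendsto_metrizable h1 ?_
  rw [tendsto_pi_nhds]
  intro t
  rw [tendsto_iff_norm_sub_tendsto_zero]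
  have h2 : ∀ n, ‖I (C.Γ (u t) (wn n)) - I (C.Γ (u t) w)‖ ≤
      Real.sqrt (I (C.Γ (u t) (u t))) * Real.sqrt (C.nrm2 (wn n - w)) := by
    intro n
    rw [← I_sub (hC.Γ_mem1 (hu.mem t) (hwW n)) (hC.Γ_mem1 (hu.mem t) hw),
      ← hC.Γ_sub_right (hu.mem t) (hwW n) hw, Real.norm_eq_abs]
    refine (hC.E_abs_le (hu.mem t) (hC.sub_mem (hwW n) hw)).trans
      (mul_le_mul_of_nonneg_left ?_ (Real.sqrt_nonneg _))
    exact Real.sqrt_le_sqrt (hC.E_le_nrm2 (wn n - w))
  refine squeeze_zero (fun n => norm_nonneg _) h2 ?_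
  have h3 := (Real.continuous_sqrt.tendsto _).comp (hC.J_tendsto_W hw)
  rw [Real.sqrt_zero] at h3
  simpa using h3.const_mul (Real.sqrt (I (C.Γ (u t) (u t))))

theorem add (hC : IsDir C) (hu : WM C u) (hv : WM C v) : WM C (fun t => u t + v t) where
  mem t := hC.add_mem _ (hu.mem t) _ (hv.mem t)
  meas g hg := by
    have e : (fun t => I ((u t + v t) * g)) = fun t => I (u t * g) + I (v t * g) := by
      funext t
      rw [add_mul, I_add (mem_mul_22 (hC.memLp _ (hu.mem t)) (hC.memLp _ hg))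
        (mem_mul_22 (hC.memLp _ (hv.mem t)) (hC.memLp _ hg))]
    rw [e]
    exact (hu.meas g hg).add (hv.meas g hg)

theorem smul (hC : IsDir C) {c : T → ℝ} (hc : Measurable c) (hu : WM C u) :
    WM C (fun t => c t • u t) where
  mem t := hC.smul_mem _ _ (hu.mem t)
  meas g hg := by
    have e : (fun t => I (c t • u t * g)) = fun t => c t * I (u t * g) := by
      funext t
      rw [smul_mul_assoc, I_smul]
    rw [e]
    exact hc.mul (hu.meas g hg)

theorem const (hC : IsDir C) {w : M →ₘ[m] ℝ} (hw : w ∈ C.W) : WM C (fun _ : T => w) where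
  mem _ := hw
  meas _ _ := measurable_const

theorem sub (hC : IsDir C) (hu : WM C u) (hv : WM C v) : WM C (fun t => u t - v t) := by
  have h := add hC hu (smul hC (measurable_const (a := (-1 : ℝ))) hv)
  have e : (fun t => u t - v t) = fun t => u t + (-1 : ℝ) • v t := by
    funext t
    rw [neg_one_smul, sub_eq_add_neg]
  rw [e]
  exact h

/-- the Sobolev norm is measurable -/
theorem meas_nrm2 [SigmaFinite m] [MeasurableSpace.CountablyGenerated M] (hC : IsDir C)
    (hu : WM C u) : Measurable fun t => C.nrm2 (u t) := by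
  obtain ⟨e, he, hd⟩ := hC.exists_dense_seq
  have key : ∀ w ∈ C.W, ∀ z ∈ C.W, C.nrm2 (w - z) =
      C.nrm2 w - 2 * (I (w * z) + I (C.Γ w z)) + C.nrm2 z := by
    intro w hw z hz
    have hw2 := hC.memLp _ hw
    have hz2 := hC.memLp _ hz
    have e1 : I ((w - z) ^ 2) = I (w ^ 2) - 2 * I (w * z) + I (z ^ 2) := by
      have : (w - z) ^ 2 = w ^ 2 - (2 : ℝ) • (w * z) + z ^ 2 := by
        rw [two_smul]; ring
      rw [this, I_add (mem_sub (mem_sq hw2) (mem_smul _ (mem_mul_22 hw2 hz2))) (mem_sq hz2),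
        I_sub (mem_sq hw2) (mem_smul _ (mem_mul_22 hw2 hz2)), I_smul]
    have e2 : I (C.Γ (w - z) (w - z)) = I (C.Γ w w) - 2 * I (C.Γ w z) + I (C.Γ z z) := by
      rw [hC.Γ_sub_left hw hz (hC.sub_mem hw hz), hC.Γ_sub_right hw hw hz,
        hC.Γ_sub_right hz hw hz, I_sub (mem_sub (hC.Γ_mem1 hw hw) (hC.Γ_mem1 hw hz))
        (mem_sub (hC.Γ_mem1 hz hw) (hC.Γ_mem1 hz hz)), I_sub (hC.Γ_mem1 hw hw) (hC.Γ_mem1 hw hz),
        I_sub (hC.Γ_mem1 hz hw) (hC.Γ_mem1 hz hz), hC.symm z hz w hw]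
      ring
    unfold Calc.nrm2
    rw [e1, e2]
    ring
  refine measurable_of_Iic fun r => ?_
  have h1 : (fun t => C.nrm2 (u t)) ⁻¹' Set.Iic r =
      ⋂ n, {t | 2 * (I (u t * e n) + I (C.Γ (u t) (e n))) - C.nrm2 (e n) ≤ r} := by
    ext t
    simp only [Set.mem_preimage, Set.mem_Iic, Set.mem_iInter, Set.mem_setOf_eq]
    constructor
    · intro h n
      have := hC.nrm2_nonneg (hC.sub_mem (hu.mem t) (he n))
      rw [key _ (hu.mem t) _ (he n)] at this
      linarith
    · intro h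
      by_contra hcon
      rw [not_le] at hcon
      obtain ⟨n, hn⟩ := hd (u t) (hu.mem t) (C.nrm2 (u t) - r) (by linarith)
      rw [hC.nrm2_sub_comm (he n) (hu.mem t), key _ (hu.mem t) _ (he n)] at hn
      linarith [h n]
  rw [h1]
  refine MeasurableSet.iInter fun n => ?_
  exact measurableSet_le (((((hu.meas _ (he n)).add (hu.measΓ hC (he n))).const_mul 2)).sub
    measurable_const) measurable_const

/-- representative of a weakly measurable curve in `W` -/
theorem exists_rep [IsSeparable m] (hC : IsDir C) (hu : WM C u) :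
    ∃ F : T → M → ℝ, Measurable (Function.uncurry F) ∧ ∀ t, F t =ᵐ[m] u t :=
  exists_repW hC (fun t => hC.memLp _ (hu.mem t)) hu.meas

/-- **The gradient of a weakly measurable curve in `W` is jointly measurable.** -/
theorem exists_grad [SigmaFinite m] [MeasurableSpace.CountablyGenerated M] (hC : IsDir C)
    (hu : WM C u) {E : Type*} [NormedAddCommGroup E] [InnerProductSpace ℝ E] [CompleteSpace E]
    {Gr : (M →ₘ[m] ℝ) → M → E} (hG : IsGrad C Gr) :
    ∃ G : T → M → E, StronglyMeasurable (Function.uncurry G) ∧ ∀ t, G t =ᵐ[m] Gr (u t) := by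
  classical
  haveI : Fact ((1 : ℝ≥0∞) ≤ 2) := ⟨by norm_num⟩
  obtain ⟨e, he, hd⟩ := hC.exists_dense_seq
  have hex : ∀ (n : ℕ) (t : T), ∃ k, C.nrm2 (e k - u t) < ((1 / 2 : ℝ) ^ n) ^ 2 := fun n t =>
    hd (u t) (hu.mem t) _ (by positivity)
  have hmeas : ∀ n k, MeasurableSet {t | C.nrm2 (e k - u t) < ((1 / 2 : ℝ) ^ n) ^ 2} := by
    intro n k
    exact measurableSet_lt (((const hC (he k)).sub hC hu).meas_nrm2 hC) measurable_const
  set N : ℕ → T → ℕ := fun n t => Nat.find (hex n t) with hN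
  have hNm : ∀ n, Measurable (N n) := fun n => measurable_find (hex n) (hmeas n)
  have hNs : ∀ n t, C.nrm2 (e (N n t) - u t) < ((1 / 2 : ℝ) ^ n) ^ 2 := fun n t =>
    Nat.find_spec (hex n t)
  set g : T → Lp E 2 m := fun t => (hG.mem (u t) (hu.mem t)).toLp with hg
  set gk : ℕ → Lp E 2 m := fun k => (hG.mem (e k) (he k)).toLp with hgk
  have hdist : ∀ k t, ‖gk k - g t‖ ≤ Real.sqrt (C.nrm2 (e k - u t)) := by
    intro k t
    refine Real.le_sqrt_of_sq_le ?_
    have hsub : e k - u t ∈ C.W := hC.sub_mem (he k) (hu.mem t)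
    have e1 : ‖gk k - g t‖ ^ 2 = I (C.Γ (e k - u t) (e k - u t)) := by
      rw [← hG.int_norm_sq hsub, ← real_inner_self_eq_norm_sq, L2.inner_def]
      refine integral_congr_ae ?_
      filter_upwards [Lp.coeFn_sub (gk k) (g t), hG.sub hC (he k) (hu.mem t),
        (hG.mem (e k) (he k)).coeFn_toLp, (hG.mem (u t) (hu.mem t)).coeFn_toLp] with x a1 a2 a3 a4
      rw [a1, a2, Pi.sub_apply]
      have b3 : gk k x = Gr (e k) x := a3
      have b4 : g t x = Gr (u t) x := a4
      rw [b3, b4, real_inner_self_eq_norm_sq]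
    rw [e1]
    exact hC.E_le_nrm2 (e k - u t)
  have hsm : StronglyMeasurable g := by
    refine stronglyMeasurable_of_tendsto atTop (f := fun n t => gk (N n t)) (fun n => ?_) ?_
    · have hgs : StronglyMeasurable gk := StronglyMeasurable.of_discrete
      exact hgs.comp_measurable (hNm n)
    · rw [tendsto_pi_nhds]
      intro t
      rw [tendsto_iff_norm_sub_tendsto_zero]
      refine squeeze_zero (fun n => norm_nonneg _) (fun n => (hdist (N n t) t).trans ?_)
        (tendsto_pow_atTop_nhds_zero_of_lt_one (r := (1 / 2 : ℝ)) (by norm_num) (by norm_num))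
      exact Real.sqrt_le_iff.2 ⟨by positivity, (hNs n t).le⟩
  obtain ⟨G, hG1, hG2⟩ := exists_uncurry (m := m) (p := 2) (by norm_num) hsm
  exact ⟨G, hG1, fun t => (hG2 t).trans (hG.mem (u t) (hu.mem t)).coeFn_toLp⟩

end WM

end curves

end Vale.Agent.P233.H106
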