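import Vale.Agent.P233.H106.JM3

/-! P233, toolbox JM: Fubini, uniqueness and transport for jointly measurable representatives. -/

set_option linter.all false

open MeasureTheory Filter Topology
open scoped ENNReal NNReal InnerProductSpace

namespace Vale.Agent.P233.H106

variable {T M : Type*} [MeasurableSpace T] [MeasurableSpace M] {m : Measure M} {τ : Measure T}

/-! ### uniqueness -/

/-- a.e. equality in the product is a.e. equality of the sections (jointly measurable functions) -/
theorem ae_prod_iff [SFinite m] {P : T → M → Prop} (hP : MeasurableSet {z : T × M | P z.1 z.2}) :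
    (∀ᵐ z ∂(τ.prod m), P z.1 z.2) ↔ ∀ᵐ t ∂τ, ∀ᵐ x ∂m, P t x :=
  Measure.ae_prod_mem_iff_ae_ae_mem (s := {z : T × M | P z.1 z.2}) hP

/-- two representatives agree a.e. in the product -/
theorem ae_eq_prod [SFinite m] {E : Type*} [TopologicalSpace E]
    [TopologicalSpace.MetrizableSpace E] {F G : T → M → E}
    (hF : StronglyMeasurable (Function.uncurry F)) (hG : StronglyMeasurable (Function.uncurry G))
    (h : ∀ᵐ t ∂τ, F t =ᵐ[m] G t) : Function.uncurry F =ᵐ[τ.prod m] Function.uncurry G := by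
  have hs : MeasurableSet {z : T × M | Function.uncurry F z = Function.uncurry G z} :=
    hF.measurableSet_eq_fun hG
  exact (Measure.ae_prod_mem_iff_ae_ae_mem (s := {z : T × M | Function.uncurry F z =
    Function.uncurry G z}) hs).2 h

/-- order -/
theorem ae_le_prod [SFinite m] {F G : T → M → ℝ} (hF : Measurable (Function.uncurry F))
    (hG : Measurable (Function.uncurry G)) (h : ∀ᵐ t ∂τ, ∀ᵐ x ∂m, F t x ≤ G t x) :
    ∀ᵐ z ∂(τ.prod m), F z.1 z.2 ≤ G z.1 z.2 :=
  (ae_prod_iff (P := fun t x => F t x ≤ G t x) (measurableSet_le hF hG)).2 h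

/-- from the product to the sections -/
theorem ae_sections [SFinite m] {P : T → M → Prop} (h : ∀ᵐ z ∂(τ.prod m), P z.1 z.2) :
    ∀ᵐ t ∂τ, ∀ᵐ x ∂m, P t x := Measure.ae_ae_of_ae_prod h

/-- a bound: the representative can be chosen with the bound everywhere -/
theorem exists_bdd {F : T → M → ℝ} (hF : Measurable (Function.uncurry F)) (K : ℝ) :
    ∃ G : T → M → ℝ, Measurable (Function.uncurry G) ∧ (∀ t x, |G t x| ≤ |K|) ∧
      ∀ t, (∀ᵐ x ∂m, |F t x| ≤ K) → G t =ᵐ[m] F t := by
  refine ⟨fun t x => max (min (F t x) |K|) (-|K|), ?_, ?_, ?_⟩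
  · exact (hF.min measurable_const).max measurable_const
  · intro t x
    rw [abs_le]
    constructor
    · exact le_max_right _ _
    · exact max_le (min_le_right _ _) (by linarith [abs_nonneg K])
  · intro t ht
    filter_upwards [ht] with x hx
    have h1 := abs_le.1 (hx.trans (le_abs_self K))
    show max (min (F t x) |K|) (-|K|) = F t x
    rw [min_eq_left h1.2, max_eq_left h1.1]

/-! ### Fubini -/

section fubini

variable [SFinite m] {f g : T → M →ₘ[m] ℝ} {F G : T → M → ℝ}

/-- the integral of a curve is measurable -/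
theorem meas_I (hF : Measurable (Function.uncurry F)) (h : ∀ t, F t =ᵐ[m] f t) :
    Measurable fun t => I (f t) := by
  have e : (fun t => I (f t)) = fun t => ∫ x, F t x ∂m := by
    funext t
    exact (integral_congr_ae (h t)).symm
  rw [e]
  exact (StronglyMeasurable.integral_prod_right (f := F) hF.stronglyMeasurable).measurable

theorem meas_I_mul (hF : Measurable (Function.uncurry F)) (h : ∀ t, F t =ᵐ[m] f t)
    (hG : Measurable (Function.uncurry G)) (h' : ∀ t, G t =ᵐ[m] g t) :
    Measurable fun t => I (f t * g t) := by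
  refine meas_I (F := fun t x => F t x * G t x) (hF.mul hG) fun t => ?_
  filter_upwards [h t, h' t, mul_ae (f t) (g t)] with x a1 a2 a3
  rw [a1, a2, a3]

theorem memLp_section {p : ℝ≥0∞} {t : T} (h : F t =ᵐ[m] f t) : MemLp (F t) p m ↔ MemLp (f t) p m :=
  memLp_congr_ae h

/-- integrability in the product -/
theorem integrable_prod [SFinite τ] (hF : Measurable (Function.uncurry F))
    (h : ∀ᵐ t ∂τ, F t =ᵐ[m] f t) (h1 : ∀ᵐ t ∂τ, MemLp (f t) 1 m)
    (h2 : Integrable (fun t => ∫ x, |f t x| ∂m) τ) :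
    Integrable (Function.uncurry F) (τ.prod m) := by
  rw [integrable_prod_iff hF.aestronglyMeasurable]
  constructor
  · filter_upwards [h, h1] with t a1 a2
    exact (integrable_congr a1).2 (int_of_mem a2)
  · refine h2.congr ?_
    filter_upwards [h] with t a1
    refine (integral_congr_ae ?_).symm
    filter_upwards [a1] with x hx
    show ‖F t x‖ = |f t x|
    rw [hx, Real.norm_eq_abs]

/-- the iterated integral -/
theorem integral_prod_eq [SFinite τ] (hint : Integrable (Function.uncurry F) (τ.prod m))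
    (h : ∀ᵐ t ∂τ, F t =ᵐ[m] f t) : ∫ z, F z.1 z.2 ∂(τ.prod m) = ∫ t, I (f t) ∂τ := by
  have e := integral_prod (μ := τ) (ν := m) (Function.uncurry F) hint
  have e2 : ∫ z, F z.1 z.2 ∂(τ.prod m) = ∫ z, Function.uncurry F z ∂(τ.prod m) := rfl
  rw [e2, e]
  refine integral_congr_ae ?_
  filter_upwards [h] with t a1
  exact integral_congr_ae a1

/-- `L²` of the product -/
theorem memLp_two_prod [SFinite τ] (hF : Measurable (Function.uncurry F))
    (h : ∀ᵐ t ∂τ, F t =ᵐ[m] f t) (h1 : ∀ᵐ t ∂τ, MemLp (f t) 2 m)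
    (h2 : Integrable (fun t => I (f t ^ 2)) τ) : MemLp (Function.uncurry F) 2 (τ.prod m) := by
  rw [memLp_two_iff_integrable_sq hF.aestronglyMeasurable]
  have hF2 : Measurable (Function.uncurry fun t x => F t x ^ 2) := hF.pow_const 2
  refine integrable_prod (f := fun t => f t ^ 2) (F := fun t x => F t x ^ 2) hF2 ?_ ?_ ?_
  · filter_upwards [h] with t a1
    filter_upwards [a1, sq_ae (f t)] with x hx hy
    rw [hx, hy]
  · filter_upwards [h1] with t a1
    exact mem_sq a1
  · refine h2.congr (Eventually.of_forall fun t => ?_)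
    refine integral_congr_ae ?_
    filter_upwards [sq_ae (f t)] with x hx
    rw [hx, abs_of_nonneg (sq_nonneg _)]

theorem memLp_two_prod_iff [SFinite τ] (hF : Measurable (Function.uncurry F))
    (h : ∀ᵐ t ∂τ, F t =ᵐ[m] f t) : MemLp (Function.uncurry F) 2 (τ.prod m) ↔
      ((∀ᵐ t ∂τ, MemLp (f t) 2 m) ∧ Integrable (fun t => I (f t ^ 2)) τ) := by
  constructor
  · intro hm
    rw [memLp_two_iff_integrable_sq hF.aestronglyMeasurable] at hm
    have hm' : Integrable (Function.uncurry fun t x => F t x ^ 2) (τ.prod m) := hm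
    have h1 := (integrable_prod_iff hm'.aestronglyMeasurable).1 hm'
    constructor
    · filter_upwards [h, h1.1] with t a1 a2
      rw [← memLp_congr_ae a1, memLp_two_iff_integrable_sq]
      · exact a2
      · exact (hF.comp measurable_prodMk_left).aestronglyMeasurable
    · have h3 := hm'.integral_prod_left
      refine h3.congr ?_
      filter_upwards [h] with t a1
      refine integral_congr_ae ?_
      filter_upwards [a1, sq_ae (f t)] with x hx hy
      show F t x ^ 2 = _
      rw [hx, hy]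
  · rintro ⟨h1, h2⟩
    exact memLp_two_prod hF h h1 h2

/-- products -/
theorem integral_prod_mul [SFinite τ] (h : ∀ᵐ t ∂τ, F t =ᵐ[m] f t) (h' : ∀ᵐ t ∂τ, G t =ᵐ[m] g t)
    (hF : MemLp (Function.uncurry F) 2 (τ.prod m)) (hG : MemLp (Function.uncurry G) 2 (τ.prod m)) :
    ∫ z, F z.1 z.2 * G z.1 z.2 ∂(τ.prod m) = ∫ t, I (f t * g t) ∂τ := by
  have hint : Integrable (Function.uncurry fun t x => F t x * G t x) (τ.prod m) :=
    hF.integrable_mul hG
  refine integral_prod_eq (F := fun t x => F t x * G t x) (f := fun t => f t * g t) hint ?_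
  filter_upwards [h, h'] with t a1 a2
  filter_upwards [a1, a2, mul_ae (f t) (g t)] with x b1 b2 b3
  rw [b1, b2, b3]

end fubini

/-! ### transport by a flow -/

section transport

variable {Y : Type*} [MeasurableSpace Y] {μ : Measure Y} {X : T → Y → M}

/-- null sets of `dt × m` pull back to null sets of `dt × μ` -/
theorem ae_comp_flow [SFinite m] [SFinite μ] (hX : Measurable (Function.uncurry X))
    (hac : ∀ᵐ t ∂τ, (μ.map (X t)) ≪ m) {P : T → M → Prop}
    (h : ∀ᵐ z ∂(τ.prod m), P z.1 z.2) : ∀ᵐ z ∂(τ.prod μ), P z.1 (X z.1 z.2) := by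
  have h0 : (τ.prod m) {z : T × M | ¬ P z.1 z.2} = 0 := h
  obtain ⟨N, hN1, hN2, hN3⟩ := exists_measurable_superset_of_null h0
  have h1 : ∀ᵐ t ∂τ, m (Prod.mk t ⁻¹' N) = 0 := Measure.measure_ae_null_of_prod_null hN3
  have hmap : Measurable (fun z : T × Y => (z.1, X z.1 z.2)) := measurable_fst.prodMk hX
  have h2 : (τ.prod μ) ((fun z : T × Y => (z.1, X z.1 z.2)) ⁻¹' N) = 0 := by
    refine Measure.measure_prod_null_of_ae_null (hmap hN2) ?_
    filter_upwards [h1, hac] with t a1 a2
    have hXt : Measurable (X t) := hX.comp measurable_prodMk_left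
    have a3 : μ.map (X t) (Prod.mk t ⁻¹' N) = 0 := a2 a1
    rw [Measure.map_apply hXt (measurable_prodMk_left hN2)] at a3
    exact a3
  refine measure_mono_null ?_ h2
  intro z hz
  exact hN1 hz

/-- the same for a.e. curve -/
theorem ae_comp_flow' [SFinite m] [SFinite μ] [SFinite τ] (hX : Measurable (Function.uncurry X))
    (hac : ∀ᵐ t ∂τ, (μ.map (X t)) ≪ m) {P : T → M → Prop}
    (h : ∀ᵐ z ∂(τ.prod m), P z.1 z.2) : ∀ᵐ y ∂μ, ∀ᵐ t ∂τ, P t (X t y) := by
  have h1 := ae_comp_flow hX hac h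
  have h2 : ∀ᵐ z ∂(μ.prod τ), P z.2 (X z.2 z.1) := by
    have := (Measure.measurePreserving_swap (μ := μ) (ν := τ)).quasiMeasurePreserving.ae h1
    exact this
  exact Measure.ae_ae_of_ae_prod h2

/-- two representatives agree along a.e. curve at a.e. time -/
theorem comp_flow_eq [SFinite m] [SFinite μ] [SFinite τ] {E : Type*} [TopologicalSpace E]
    [TopologicalSpace.MetrizableSpace E] (hX : Measurable (Function.uncurry X))
    (hac : ∀ᵐ t ∂τ, (μ.map (X t)) ≪ m) {F G : T → M → E}
    (hF : StronglyMeasurable (Function.uncurry F)) (hG : StronglyMeasurable (Function.uncurry G))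
    (h : ∀ᵐ t ∂τ, F t =ᵐ[m] G t) : ∀ᵐ y ∂μ, ∀ᵐ t ∂τ, F t (X t y) = G t (X t y) :=
  ae_comp_flow' (P := fun t x => F t x = G t x) hX hac (ae_eq_prod hF hG h)

/-- change of variables `∫ b(X_t) dμ ≤ C ∫ b dm` in space-time -/
theorem lintegral_comp_flow_le [SFinite m] [SFinite μ] (hX : Measurable (Function.uncurry X))
    {c : ℝ≥0∞} (hc : ∀ᵐ t ∂τ, μ.map (X t) ≤ c • m) {b : T → M → ℝ≥0∞}
    (hb : Measurable (Function.uncurry b)) :
    ∫⁻ z, b z.1 (X z.1 z.2) ∂(τ.prod μ) ≤ c * ∫⁻ z, b z.1 z.2 ∂(τ.prod m) := by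
  have hmap : Measurable (fun z : T × Y => (z.1, X z.1 z.2)) := measurable_fst.prodMk hX
  have e1 : ∫⁻ z, b z.1 (X z.1 z.2) ∂(τ.prod μ) = ∫⁻ t, ∫⁻ y, b t (X t y) ∂μ ∂τ :=
    lintegral_prod (fun z => b z.1 (X z.1 z.2)) (hb.comp hmap).aemeasurable
  have e2 : ∫⁻ z, b z.1 z.2 ∂(τ.prod m) = ∫⁻ t, ∫⁻ x, b t x ∂m ∂τ :=
    lintegral_prod (fun z => b z.1 z.2) hb.aemeasurable
  rw [e1, e2, ← lintegral_const_mul]
  · refine lintegral_mono_ae ?_
    filter_upwards [hc] with t ht
    have hXt : Measurable (X t) := hX.comp measurable_prodMk_left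
    have hbt : Measurable (b t) := hb.comp measurable_prodMk_left
    calc ∫⁻ y, b t (X t y) ∂μ = ∫⁻ x, b t x ∂(μ.map (X t)) := (lintegral_map hbt hXt).symm
      _ ≤ ∫⁻ x, b t x ∂(c • m) := lintegral_mono' ht le_rfl
      _ = c * ∫⁻ x, b t x ∂m := by rw [lintegral_smul_measure, smul_eq_mul]
  · exact hb.lintegral_prod_right'

end transport

/-! ### curves that are continuous in `L²` -/

section cont

/-- a curve that is `L²`-continuous on `S` is weakly measurable on `S` -/
theorem measurable_of_cont {T : Type*} [TopologicalSpace T] [MeasurableSpace T]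
    [OpensMeasurableSpace T] {f : T → M →ₘ[m] ℝ} (hmem : ∀ t, MemLp (f t) 2 m)
    (hc : ∀ t, Tendsto (fun r => I ((f r - f t) ^ 2)) (𝓝 t) (𝓝 0)) {g : M →ₘ[m] ℝ}
    (hg : MemLp g 2 m) : Measurable fun t => I (f t * g) := by
  have : Continuous fun t => I (f t * g) := by
    rw [continuous_iff_continuousAt]
    intro t
    rw [ContinuousAt, tendsto_iff_norm_sub_tendsto_zero]
    have h1 : ∀ r, ‖I (f r * g) - I (f t * g)‖ ≤
        Real.sqrt (I ((f r - f t) ^ 2)) * Real.sqrt (I (g ^ 2)) := by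
      intro r
      rw [← I_sub (mem_mul_22 (hmem r) hg) (mem_mul_22 (hmem t) hg), ← sub_mul, Real.norm_eq_abs]
      exact abs_I_mul_le (mem_sub (hmem r) (hmem t)) hg
    refine squeeze_zero (fun n => norm_nonneg _) h1 ?_
    have h3 := (Real.continuous_sqrt.tendsto _).comp (hc t)
    rw [Real.sqrt_zero] at h3
    simpa using h3.mul_const (Real.sqrt (I (g ^ 2)))
  exact this.measurable

/-- the version on a set of times -/
theorem measurable_of_cont_on {T : Type*} [TopologicalSpace T] [MeasurableSpace T]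
    [OpensMeasurableSpace T] {S : Set T} {f : T → M →ₘ[m] ℝ} (hmem : ∀ t ∈ S, MemLp (f t) 2 m)
    (hc : ∀ t ∈ S, Tendsto (fun r => I ((f r - f t) ^ 2)) (𝓝[S] t) (𝓝 0)) {g : M →ₘ[m] ℝ}
    (hg : MemLp g 2 m) : Measurable fun t : S => I (f t * g) := by
  refine measurable_of_cont (T := S) (f := fun t : S => f t) (fun t => hmem t t.2) (fun t => ?_) hg
  have h1 := hc t t.2
  rw [nhdsWithin_eq_map_subtype_coe t.2] at h1
  exact h1

/-- representative of an `L²`-continuous curve on a measurable set of times -/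
theorem exists_rep_cont {T : Type*} [TopologicalSpace T] [MeasurableSpace T]
    [OpensMeasurableSpace T] [IsSeparable m] {S : Set T} (hS : MeasurableSet S)
    {f : T → M →ₘ[m] ℝ} (hmem : ∀ t ∈ S, MemLp (f t) 2 m)
    (hc : ∀ t ∈ S, Tendsto (fun r => I ((f r - f t) ^ 2)) (𝓝[S] t) (𝓝 0)) :
    ∃ F : T → M → ℝ, Measurable (Function.uncurry F) ∧ ∀ t ∈ S, F t =ᵐ[m] f t := by
  refine exists_rep_on hS hmem (D := {g | MemLp g 2 m}) (fun g hg => hg)
    (fun g hg ε hε => ⟨g, hg, ?_⟩) (fun g hg => measurable_of_cont_on hmem hc hg)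
  have : (g - g) ^ 2 = (0 : M →ₘ[m] ℝ) := by rw [sub_self]; ring
  rw [this, I_zero]
  exact hε

end cont

end Vale.Agent.P233.H106
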