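import Vale.Agent.P233.H106.JM4

/-! P233, toolbox JM: bounded curves (weak-* measurable densities) and carre du champ of curves. -/

set_option linter.all false

open MeasureTheory Filter Topology
open scoped ENNReal NNReal InnerProductSpace

namespace Vale.Agent.P233.H106

variable {T M : Type*} [MeasurableSpace T] [MeasurableSpace M] {m : Measure M}

/-- class of an indicator function -/
noncomputable def indc (m : Measure M) {s : Set M} (hs : MeasurableSet s) : M →ₘ[m] ℝ :=
  AEEqFun.mk (s.indicator fun _ => (1 : ℝ)) ((measurable_const.indicator hs).aestronglyMeasurable)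

theorem indc_ae {s : Set M} (hs : MeasurableSet s) :
    ⇑(indc m hs) =ᵐ[m] s.indicator fun _ => (1 : ℝ) := AEEqFun.coeFn_mk _ _

theorem indc_mem {s : Set M} (hs : MeasurableSet s) (hfin : m s < ∞) (p : ℝ≥0∞) :
    MemLp (indc m hs) p m :=
  (memLp_congr_ae (indc_ae hs)).2 (memLp_indicator_const p hs 1 (Or.inr hfin.ne))

/-- **weak-* measurable bounded curves** have jointly measurable representatives -/
theorem exists_rep_bdd [SigmaFinite m] [IsSeparable m] {f : T → M →ₘ[m] ℝ}
    (hb : ∀ t, MemLp (f t) ∞ m)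
    (h : ∀ g : M →ₘ[m] ℝ, MemLp g 1 m → MemLp g 2 m → Measurable fun t => I (f t * g)) :
    ∃ F : T → M → ℝ, Measurable (Function.uncurry F) ∧ ∀ t, F t =ᵐ[m] f t := by
  classical
  have hsm : ∀ n, MeasurableSet (spanningSets m n) := fun n => measurableSet_spanningSets m n
  have hfin : ∀ n, m (spanningSets m n) < ∞ := fun n => measure_spanningSets_lt_top m n
  have h1 : ∀ n, ∃ F : T → M → ℝ, Measurable (Function.uncurry F) ∧
      ∀ t, F t =ᵐ[m] (f t * indc m (hsm n) : M →ₘ[m] ℝ) := by
    intro n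
    refine exists_rep' (fun t => mem_mul_top (hb t) (indc_mem (hsm n) (hfin n) 2)) fun g hg => ?_
    have h2 : (fun t => I (f t * indc m (hsm n) * g)) = fun t => I (f t * (indc m (hsm n) * g)) := by
      funext t; rw [mul_assoc]
    rw [h2]
    exact h _ (mem_mul_22 (indc_mem (hsm n) (hfin n) 2) hg)
      (mem_mul_top (indc_mem (hsm n) (hfin n) ∞) hg)
  choose F hF hF2 using h1
  have hex : ∀ x : M, ∃ n, x ∈ spanningSets m n := fun x => by
    have : x ∈ ⋃ n, spanningSets m n := by rw [iUnion_spanningSets]; trivial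
    exact Set.mem_iUnion.1 this
  set N : M → ℕ := fun x => Nat.find (hex x) with hN
  have hNm : Measurable N := measurable_find hex fun n => hsm n
  have hNs : ∀ x, x ∈ spanningSets m (N x) := fun x => Nat.find_spec (hex x)
  refine ⟨fun t x => F (N x) t x, ?_, fun t => ?_⟩
  · exact (nat_comp (Z := T × M) (G := fun n z => F n z.1 z.2)
      (fun n => (hF n).stronglyMeasurable) (N := fun z => N z.2)
      (hNm.comp measurable_snd)).measurable
  · filter_upwards [ae_all_iff.2 fun n => hF2 n t, ae_all_iff.2 fun n => mul_ae (f t)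
      (indc m (hsm n)), ae_all_iff.2 fun n => indc_ae (m := m) (hsm n)] with x a1 a2 a3
    rw [a1, a2, a3, Set.indicator_of_mem (hNs x), mul_one]

/-- only the times in `S` -/
theorem exists_rep_bdd_on [SigmaFinite m] [IsSeparable m] {S : Set T} (hS : MeasurableSet S)
    {f : T → M →ₘ[m] ℝ} (hb : ∀ t ∈ S, MemLp (f t) ∞ m)
    (h : ∀ g : M →ₘ[m] ℝ, MemLp g 1 m → MemLp g 2 m → Measurable fun t : S => I (f t * g)) :
    ∃ F : T → M → ℝ, Measurable (Function.uncurry F) ∧ ∀ t ∈ S, F t =ᵐ[m] f t := by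
  classical
  have h1 := exists_rep_bdd (T := T) (f := fun t => if t ∈ S then f t else 0) ?_ ?_
  · obtain ⟨F, hF, hF2⟩ := h1
    refine ⟨F, hF, fun t ht => (hF2 t).trans ?_⟩
    simp [ht]
  · intro t
    by_cases ht : t ∈ S
    · simp only [ht, if_true]; exact hb t ht
    · simp only [ht, if_false]; exact mem_zero
  · intro g hg hg2
    have h2 : (fun t => I ((if t ∈ S then f t else 0) * g)) =
        fun t => if ht : t ∈ S then I (f (⟨t, ht⟩ : S) * g) else 0 := by
      funext t
      by_cases ht : t ∈ S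
      · simp [ht]
      · simp only [ht, if_false, dif_neg, not_false_iff]
        rw [zero_mul, I_zero]
    rw [h2]
    exact Measurable.dite (h g hg hg2) measurable_const hS

/-- only the times in `S`, curves in `W` -/
theorem WM.of_on {C : Calc m} (hC : IsDir C) {S : Set T} (hS : MeasurableSet S)
    {f : T → M →ₘ[m] ℝ} (hmem : ∀ t ∈ S, f t ∈ C.W)
    (h : ∀ g ∈ C.W, Measurable fun t : S => I (f t * g)) :
    open Classical in WM C (fun t => if t ∈ S then f t else 0) := by
  classical
  refine ⟨fun t => ?_, fun g hg => ?_⟩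
  · by_cases ht : t ∈ S
    · simp only [ht, if_true]; exact hmem t ht
    · simp only [ht, if_false]; exact hC.zero_mem
  · have h2 : (fun t => I ((if t ∈ S then f t else 0) * g)) =
        fun t => if ht : t ∈ S then I (f (⟨t, ht⟩ : S) * g) else 0 := by
      funext t
      by_cases ht : t ∈ S
      · simp [ht]
      · simp only [ht, if_false, dif_neg, not_false_iff]
        rw [zero_mul, I_zero]
    rw [h2]
    exact Measurable.dite (h g hg) measurable_const hS

variable {C : Calc m}

/-- `W`-continuous curves are weakly measurable -/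
theorem WM.of_cont {T : Type*} [TopologicalSpace T] [MeasurableSpace T]
    [OpensMeasurableSpace T] (hC : IsDir C) {S : Set T} (hS : MeasurableSet S)
    {f : T → M →ₘ[m] ℝ} (hmem : ∀ t ∈ S, f t ∈ C.W)
    (hc : ∀ t ∈ S, Tendsto (fun r => I ((f r - f t) ^ 2)) (𝓝[S] t) (𝓝 0)) :
    open Classical in WM C (fun t => if t ∈ S then f t else 0) :=
  WM.of_on hC hS hmem fun g hg =>
    measurable_of_cont_on (fun t ht => hC.memLp _ (hmem t ht)) hc (hC.memLp g hg)

/-- carre du champ of two curves -/
theorem WM.exists_Γ [SigmaFinite m] [MeasurableSpace.CountablyGenerated M] (hC : IsDir C)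
    {u v : T → M →ₘ[m] ℝ} (hu : WM C u) (hv : WM C v) :
    ∃ F : T → M → ℝ, Measurable (Function.uncurry F) ∧ ∀ t, F t =ᵐ[m] C.Γ (u t) (v t) := by
  obtain ⟨Gr, hG, -⟩ := hC.exists_grad
  obtain ⟨A, hA, hA2⟩ := hu.exists_grad hC hG
  obtain ⟨B, hB, hB2⟩ := hv.exists_grad hC hG
  refine ⟨fun t x => ⟪A t x, B t x⟫_ℝ, (hA.inner hB).measurable, fun t => ?_⟩
  filter_upwards [hA2 t, hB2 t, hG.inner _ (hu.mem t) _ (hv.mem t)] with x a1 a2 a3
  rw [a1, a2, a3]

/-- `t ↦ ∫ ρ_t Γ(u_t, v_t) dm` is measurable -/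
theorem WM.meas_Γ_mul [SigmaFinite m] [MeasurableSpace.CountablyGenerated M] (hC : IsDir C)
    {u v : T → M →ₘ[m] ℝ} (hu : WM C u) (hv : WM C v) {ρ : T → M →ₘ[m] ℝ} {R : T → M → ℝ}
    (hR : Measurable (Function.uncurry R)) (hR2 : ∀ t, R t =ᵐ[m] ρ t) :
    Measurable fun t => I (ρ t * C.Γ (u t) (v t)) := by
  obtain ⟨F, hF, hF2⟩ := WM.exists_Γ hC hu hv
  exact meas_I_mul hR hR2 hF hF2

end Vale.Agent.P233.H106
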